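import Mathlib

/-!
# P252: definitions

`hess u x` is the matrix of second partial derivatives of `u : ℝⁿ → ℝ` at `x`;
`affW u x = (det D²u(x)) ^ (-(n+1)/(n+2))`; `AMop u x = ∑ U^{ij} ∂_{ij} w`.
-/

namespace P252

/-- Matrix of second partial derivatives `∂_i ∂_j u`. -/
noncomputable def hess {n : ℕ} (u : (Fin n → ℝ) → ℝ) (x : Fin n → ℝ) :
    Matrix (Fin n) (Fin n) ℝ :=
  Matrix.of fun i j => fderiv ℝ (fun y => fderiv ℝ u y (Pi.single j 1)) x (Pi.single i 1)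

/-- `w = (det D²u) ^ (-(n+1)/(n+2))`. -/
noncomputable def affW {n : ℕ} (u : (Fin n → ℝ) → ℝ) (x : Fin n → ℝ) : ℝ :=
  (hess u x).det ^ (-(((n : ℝ) + 1) / ((n : ℝ) + 2)))

/-- The affine maximal operator `∑_{i,j} U^{ij} ∂_{ij} w`, `U^{ij} = det(D²u) (D²u)⁻¹_{ij}`. -/
noncomputable def AMop {n : ℕ} (u : (Fin n → ℝ) → ℝ) (x : Fin n → ℝ) : ℝ :=
  ∑ i, ∑ j, ((hess u x).det * (hess u x)⁻¹ i j) * hess (affW u) x i j

end P252
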