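import Mathlib

open Set

namespace P252

/-! Module D : `G` and `h` -/

lemma algD (m a E y G h Y s l lp : ℝ) (hE : E ≠ 0) (hG : G ≠ 0) (hq : 2 * a + m ≠ 0)
    (hY : Y = (1 + a * y) * (2 * a + 2 * m + 3 - (m ^ 2 - 6 * a) * y) / (2 * a + m)
      - y * (2 + a * (y - 1))) (hs : s = a * E)
    (hl : l = -(m + 2) * ((m + 1) * E + 2 * s * (1 + y)) / (2 * (E * (2 * s + m * E))))
    (hlp : lp = -(m + 2) / 2 * ((((m + 1) * ((1 - y) / 2) + 2 * (1 + y) + Y) *
      (E * (2 * s + m * E)) - ((m + 1) * E + 2 * s * (1 + y)) *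
      ((1 - y) / 2 * (2 * s + m * E) + E * (2 + m * ((1 - y) / 2)))) /
        (E * (2 * s + m * E)) ^ 2)) :
    2 * s * G * ((lp + l ^ 2) * h) + (m * G + (m + 5) * s * (G / E)
      + 2 * (m - 1) * s * G * (G * (1 + y) / (2 * E ^ 2)) / (G / E)) * (l * h)
      + 1 / 2 * (m + 1) * (m + 2) * (G / E + 2 * s * (G * (1 + y) / (2 * E ^ 2))) * h = 0 := by
  subst hs
  have e : 2 * (a * E) + m * E = E * (2 * a + m) := by ring
  rw [e] at hl hlp
  rw [hl, hlp, hY]
  field_simp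
  ring

lemma algB (m a E y y' s b : ℝ) (hE : E ≠ 0) (hq : 2 * a + m ≠ 0) (hs : s = a * E)
    (hb : b = 1 + a * y)
    (h : 2 * s * y' = b * (2 * a + 2 * m + 3 - (m ^ 2 - 6 * a) * y) / (2 * a + m)
      - y * (2 + a * (y - 1))) :
    (1 * E - s * ((1 - y) / 2)) / E ^ 2 * y + s / E * y' =
      b * (2 * a + 2 * m + 3 - (m ^ 2 - 6 * a) * y) / (2 * E * (2 * a + m)) := by
  subst hs
  have h3 : a * y' = (b * (2 * a + 2 * m + 3 - (m ^ 2 - 6 * a) * y) / (2 * a + m)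
      - y * (2 + a * (y - 1))) / (2 * E) := by
    rw [← h]; field_simp
  have e : a * E / E * y' = a * y' := by field_simp
  rw [e, h3, hb]
  field_simp
  ring

lemma algK (m a E y G Gm Em s b l : ℝ) (hE : E ≠ 0) (hEm : Em ≠ 0) (hq : 2 * a + m ≠ 0)
    (hm2 : m + 2 ≠ 0) (hs : s = a * E) (hb : b = 1 + a * y)
    (hl : l = -(m + 2) * ((m + 1) * E + 2 * s * (1 + y)) / (2 * (E * (2 * s + m * E)))) :
    (((m + 1) * Gm * (G / E) * b +
      Gm * G * (b * (2 * a + 2 * m + 3 - (m ^ 2 - 6 * a) * y) / (2 * E * (2 * a + m)))) *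
        (Em * E) - Gm * G * b * (m * Em * ((1 - y) / 2))) / (Em * E) ^ 2 =
      Gm * G * b / (Em * E) * (-l * (m + 3) / (m + 2)) := by
  subst hs
  have e : 2 * (a * E) + m * E = E * (2 * a + m) := by ring
  have h1 : -l * (m + 3) / (m + 2) =
      (m + 3) * ((m + 1) + 2 * a * (1 + y)) / (2 * E * (2 * a + m)) := by
    rw [hl, e]
    field_simp
  rw [h1, hb]
  generalize hQ : 2 * a + m = Q at *
  obtain rfl : m = Q - 2 * a := by linarith
  field_simp
  ring

theorem moduleD_of (m : ℕ) (hm : 9 ≤ m)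
    (hC : ∃ (δ : ℝ) (E y : ℝ → ℝ), 0 < δ ∧
      ContDiffOn ℝ (⊤ : ℕ∞) E (Ioi (-δ)) ∧ ContDiffOn ℝ (⊤ : ℕ∞) y (Ioi (-δ)) ∧
      E 0 = 1 ∧
      (∀ s, -δ < s → 0 < E s ∧ 0 < (m:ℝ) + 2 * (s / E s) ∧ 0 < 1 + s / E s * y s) ∧
      (∀ s, -δ < s → HasDerivAt E ((1 - y s) / 2) s) ∧
      (∀ s, -δ < s → ∃ y' : ℝ, HasDerivAt y y' s ∧
        2 * s * y' = (1 + s / E s * y s) *
            (2 * (s / E s) + 2 * m + 3 - ((m:ℝ) ^ 2 - 6 * (s / E s)) * y s) /
              (2 * (s / E s) + m)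
          - y s * (2 + s / E s * (y s - 1)))) :
    ∃ (δ : ℝ) (G G1 G2 h h1 h2 : ℝ → ℝ), 0 < δ ∧
      ContDiffOn ℝ (⊤ : ℕ∞) G (Ioi (-δ)) ∧ ContDiffOn ℝ (⊤ : ℕ∞) h (Ioi (-δ)) ∧
      G 0 = 1 ∧
      (∀ s, -δ < s → HasDerivAt G (G1 s) s) ∧ (∀ s, -δ < s → HasDerivAt G1 (G2 s) s) ∧
      (∀ s, -δ < s → HasDerivAt h (h1 s) s) ∧ (∀ s, -δ < s → HasDerivAt h1 (h2 s) s) ∧
      (∀ s, -δ < s → 0 < G s ∧ 0 < G1 s ∧
        0 < G s * G1 s + 2 * s * G s * G2 s - s * G1 s ^ 2) ∧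
      (∀ s, -δ < s → h s = (G1 s ^ (m - 1) *
        (G s * G1 s + 2 * s * G s * G2 s - s * G1 s ^ 2)) ^ (-(((m:ℝ) + 2) / (m + 3)))) ∧
      (∀ s, -δ < s →
        2 * s * G s * h2 s + (m * G s + (m + 5) * s * G1 s
          + 2 * (m - 1) * s * G s * G2 s / G1 s) * h1 s
          + 1 / 2 * (m + 1) * (m + 2) * (G1 s + 2 * s * G2 s) * h s = 0) := by
  obtain ⟨δ, E, y, hδ, hE, hy, hE0, hpos, dE, dy⟩ := hC
  choose! y' dy' hy' using dy
  have hEp : ∀ s, -δ < s → 0 < E s := fun s hs => (hpos s hs).1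
  have hDp : ∀ s, -δ < s → 0 < E s * (2 * s + m * E s) := by
    intro s hs
    have h1 := hEp s hs
    have h2 := (hpos s hs).2.1
    have e : E s * (2 * s + m * E s) = E s ^ 2 * (m + 2 * (s / E s)) := by
      field_simp
      ring
    rw [e]; positivity
  have hopen : IsOpen (Ioi (-δ)) := isOpen_Ioi
  -- the exponent
  let Φ : ℝ → ℝ := fun s => ∫ t in (0:ℝ)..s, (E t)⁻¹
  have hcont : ContinuousOn (fun t => (E t)⁻¹) (Ioi (-δ)) :=
    hE.continuousOn.inv₀ fun t ht => (hEp t ht).ne'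
  have dΦ : ∀ s, -δ < s → HasDerivAt Φ (E s)⁻¹ s := by
    intro s hs
    have h0 : (0:ℝ) ∈ Ioi (-δ) := by simpa using hδ
    refine intervalIntegral.integral_hasDerivAt_right ?_ ?_ ?_
    · refine (hcont.mono ?_).intervalIntegrable
      intro t ht
      have h1 : min 0 s ≤ t := ht.1
      have h2 : -δ < min 0 s := lt_min (by linarith) hs
      exact lt_of_lt_of_le h2 h1
    · exact hcont.stronglyMeasurableAtFilter hopen s hs
    · exact hcont.continuousAt (hopen.mem_nhds hs)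
  have sΦ : ContDiffOn ℝ (⊤ : ℕ∞) Φ (Ioi (-δ)) := by
    rw [contDiffOn_infty_iff_deriv_of_isOpen hopen]
    refine ⟨fun s hs => (dΦ s hs).differentiableAt.differentiableWithinAt, ?_⟩
    refine (hE.inv fun t ht => (hEp t ht).ne').congr fun s hs => ?_
    exact (dΦ s hs).deriv
  let G : ℝ → ℝ := fun s => Real.exp (Φ s)
  have hGp : ∀ s, 0 < G s := fun s => Real.exp_pos _
  have dG : ∀ s, -δ < s → HasDerivAt G (G s / E s) s := by
    intro s hs
    have := (dΦ s hs).exp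
    refine this.congr_deriv ?_
    simp only [G]
    rw [div_eq_mul_inv]
  let G1 : ℝ → ℝ := fun s => G s / E s
  let G2 : ℝ → ℝ := fun s => G s * (1 + y s) / (2 * E s ^ 2)
  have dG1 : ∀ s, -δ < s → HasDerivAt G1 (G2 s) s := by
    intro s hs
    have hEs := (hEp s hs).ne'
    refine ((dG s hs).div (dE s hs) hEs).congr_deriv ?_
    simp only [G2]
    field_simp
    ring
  -- `K`
  let b : ℝ → ℝ := fun s => 1 + s / E s * y s
  have hbp : ∀ s, -δ < s → 0 < b s := fun s hs => (hpos s hs).2.2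
  have hKeq : ∀ s, -δ < s → G1 s ^ (m - 1) *
      (G s * G1 s + 2 * s * G s * G2 s - s * G1 s ^ 2) = G s ^ (m + 1) * b s / E s ^ m := by
    intro s hs
    have hEs := (hEp s hs).ne'
    obtain ⟨k, rfl⟩ : ∃ k, m = k + 1 := ⟨m - 1, by omega⟩
    simp only [G1, G2, b, Nat.add_sub_cancel, div_pow]
    field_simp
    ring
  have hDeq : ∀ s, -δ < s → G s * G1 s + 2 * s * G s * G2 s - s * G1 s ^ 2 =
      G s ^ 2 * b s / E s := by
    intro s hs
    have hEs := (hEp s hs).ne'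
    simp only [G1, G2, b]
    field_simp
    ring
  let K : ℝ → ℝ := fun s => G s ^ (m + 1) * b s / E s ^ m
  have hKp : ∀ s, -δ < s → 0 < K s := fun s hs => by
    have h1 := hEp s hs
    have h2 := hGp s
    have h3 := hbp s hs
    simp only [K]
    positivity
  let β : ℝ := ((m:ℝ) + 2) / (m + 3)
  let h : ℝ → ℝ := fun s => K s ^ (-β)
  let l : ℝ → ℝ := fun s => -((m:ℝ) + 2) * ((m + 1) * E s + 2 * s * (1 + y s)) /
    (2 * (E s * (2 * s + m * E s)))
  let lp : ℝ → ℝ := fun s => -((m:ℝ) + 2) / 2 *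
    (((((m:ℝ) + 1) * ((1 - y s) / 2) + 2 * (1 + y s) + 2 * s * y' s) *
      (E s * (2 * s + m * E s)) - ((m + 1) * E s + 2 * s * (1 + y s)) *
      ((1 - y s) / 2 * (2 * s + m * E s) + E s * (2 + m * ((1 - y s) / 2)))) /
        (E s * (2 * s + m * E s)) ^ 2)
  have db : ∀ s, -δ < s → HasDerivAt b (b s * (2 * (s / E s) + 2 * m + 3 -
      ((m:ℝ) ^ 2 - 6 * (s / E s)) * y s) / (2 * E s * (2 * (s / E s) + m))) s := by
    intro s hs
    have hEs := (hEp s hs).ne'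
    have hq : 2 * (s / E s) + m ≠ 0 := by
      have := (hpos s hs).2.1
      intro h0; linarith
    have h1 := (((hasDerivAt_id s).div (dE s hs) hEs).mul (dy' s hs)).const_add 1
    refine h1.congr_deriv ?_
    exact algB (m:ℝ) (s / E s) (E s) (y s) (y' s) s (b s) hEs hq (by field_simp) rfl (hy' s hs)
  have dK : ∀ s, -δ < s → HasDerivAt K (K s * (-(l s) * (m + 3) / (m + 2))) s := by
    intro s hs
    have hEs := (hEp s hs).ne'
    have hq : 2 * (s / E s) + m ≠ 0 := by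
      have := (hpos s hs).2.1
      intro h0; linarith
    obtain ⟨k, rfl⟩ : ∃ k, m = k + 1 := ⟨m - 1, by omega⟩
    have h1 := (((dG s hs).pow (k + 1 + 1)).mul (db s hs)).div ((dE s hs).pow (k + 1))
      (pow_ne_zero (k + 1) hEs)
    refine h1.congr_deriv ?_
    have h2 := algK ((k + 1 : ℕ) : ℝ) (s / E s) (E s) (y s) (G s) (G s ^ (k + 1)) (E s ^ k) s (b s)
      (l s) hEs (pow_ne_zero k hEs) hq (by positivity) (by field_simp) rfl rfl
    have e1 : K s = G s ^ (k + 1) * G s * b s / (E s ^ k * E s) := by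
      simp only [K, pow_succ]
    rw [e1, ← h2]
    simp only [Nat.add_sub_cancel, pow_succ, Pi.pow_apply, Pi.mul_apply]
    push_cast
    ring
  have dh : ∀ s, -δ < s → HasDerivAt h (l s * h s) s := by
    intro s hs
    have h1 := (dK s hs).rpow_const (p := -β) (Or.inl (hKp s hs).ne')
    refine h1.congr_deriv ?_
    have hK := hKp s hs
    simp only [h]
    rw [Real.rpow_sub_one hK.ne']
    have hm3 : (m:ℝ) + 3 ≠ 0 := by positivity
    have hm2 : (m:ℝ) + 2 ≠ 0 := by positivity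
    simp only [β]
    field_simp
  have dl : ∀ s, -δ < s → HasDerivAt l (lp s) s := by
    intro s hs
    have hD := (hDp s hs).ne'
    have hN : HasDerivAt (fun s => -((m:ℝ) + 2) * ((m + 1) * E s + 2 * s * (1 + y s)))
        (-((m:ℝ) + 2) * (((m:ℝ) + 1) * ((1 - y s) / 2) + (2 * (1 + y s) + 2 * s * y' s))) s := by
      have h1 := ((dE s hs).const_mul ((m:ℝ) + 1)).add
        (((hasDerivAt_id s).const_mul 2).mul ((dy' s hs).const_add 1))
      refine (h1.const_mul (-((m:ℝ) + 2))).congr_deriv ?_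
      simp only [id]
      ring
    have hDd : HasDerivAt (fun s => 2 * (E s * (2 * s + m * E s)))
        (2 * ((1 - y s) / 2 * (2 * s + m * E s) + E s * (2 + m * ((1 - y s) / 2)))) s := by
      have h1 := (dE s hs).mul (((hasDerivAt_id s).const_mul 2).add
        ((dE s hs).const_mul (m:ℝ)))
      refine (h1.const_mul 2).congr_deriv ?_
      simp only [id, Pi.add_apply]
      ring
    refine (hN.div hDd (by positivity)).congr_deriv ?_
    simp only [lp]
    field_simp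
    ring
  refine ⟨δ, G, G1, G2, h, fun s => l s * h s, fun s => (lp s + l s ^ 2) * h s, hδ, ?_, ?_, ?_,
    dG, dG1, dh, ?_, ?_, ?_, ?_⟩
  · exact Real.contDiff_exp.comp_contDiffOn sΦ
  · have sG : ContDiffOn ℝ (⊤ : ℕ∞) G (Ioi (-δ)) := Real.contDiff_exp.comp_contDiffOn sΦ
    have sb : ContDiffOn ℝ (⊤ : ℕ∞) b (Ioi (-δ)) :=
      contDiffOn_const.add ((contDiffOn_id.div hE fun t ht => (hEp t ht).ne').mul hy)
    have sK : ContDiffOn ℝ (⊤ : ℕ∞) K (Ioi (-δ)) :=
      ((sG.pow (m + 1)).mul sb).div (hE.pow m) fun t ht => pow_ne_zero m (hEp t ht).ne'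
    exact sK.rpow_const_of_ne fun t ht => (hKp t ht).ne'
  · simp [G, Φ]
  · intro s hs
    refine ((dl s hs).mul (dh s hs)).congr_deriv ?_
    ring
  · intro s hs
    refine ⟨hGp s, div_pos (hGp s) (hEp s hs), ?_⟩
    rw [hDeq s hs]
    have h1 := hEp s hs
    have h2 := hGp s
    have h3 := hbp s hs
    positivity
  · intro s hs
    rw [hKeq s hs]
  · intro s hs
    have hEs := (hEp s hs).ne'
    have hq : 2 * (s / E s) + m ≠ 0 := by
      have := (hpos s hs).2.1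
      intro h0; linarith
    refine algD (m:ℝ) (s / E s) (E s) (y s) (G s) (h s) (2 * s * y' s) s (l s) (lp s) hEs
      (hGp s).ne' hq (hy' s hs) (by field_simp) rfl rfl

end P252
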