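import Vale.Agent.P252.Defs

open Set Matrix

namespace P252

/-- Block matrices `[[A, B zᵀ], [B z, C 1 + D z zᵀ]]`. -/
noncomputable def Sh {m : ℕ} (A B C D : ℝ) (z : Fin m → ℝ) :
    Matrix (Fin (m + 1)) (Fin (m + 1)) ℝ :=
  Matrix.of fun i j =>
    Fin.cases (Fin.cases A (fun l => B * z l) j)
      (fun k => Fin.cases (B * z k) (fun l => (if k = l then C else 0) + D * z k * z l) j) i

variable {m : ℕ}

lemma Sh_00 (A B C D : ℝ) (z : Fin m → ℝ) : Sh A B C D z 0 0 = A := rfl

lemma Sh_0s (A B C D : ℝ) (z : Fin m → ℝ) (l : Fin m) : Sh A B C D z 0 l.succ = B * z l := rfl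

lemma Sh_s0 (A B C D : ℝ) (z : Fin m → ℝ) (k : Fin m) : Sh A B C D z k.succ 0 = B * z k := rfl

lemma Sh_ss (A B C D : ℝ) (z : Fin m → ℝ) (k l : Fin m) :
    Sh A B C D z k.succ l.succ = (if k = l then C else 0) + D * z k * z l := rfl

lemma Sh_mul (A B C D A' B' C' D' : ℝ) (z : Fin m → ℝ) (s : ℝ) (hs : ∑ i, z i ^ 2 = s) :
    Sh A B C D z * Sh A' B' C' D' z =
      Matrix.of fun i j =>
        Fin.cases (Fin.cases (A * A' + B * B' * s) (fun l => (A * B' + B * C' + B * D' * s) * z l) j)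
          (fun k => Fin.cases ((B * A' + C * B' + D * B' * s) * z k)
            (fun l => (if k = l then C * C' else 0) +
              (B * B' + C * D' + D * C' + D * D' * s) * z k * z l) j) i := by
  ext i j
  rw [Matrix.mul_apply, Fin.sum_univ_succ]
  refine Fin.cases ?_ (fun k => ?_) i <;> refine Fin.cases ?_ (fun l => ?_) j
  · simp only [Sh_00, Sh_0s, Sh_s0, Matrix.of_apply, Fin.cases_zero]
    rw [← hs, Finset.mul_sum]
    congr 1
    exact Finset.sum_congr rfl fun i _ => by ring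
  · simp only [Sh_00, Sh_0s, Sh_ss, Matrix.of_apply, Fin.cases_zero, Fin.cases_succ]
    have : ∀ i, B * z i * ((if i = l then C' else 0) + D' * z i * z l) =
        (if i = l then B * z i * C' else 0) + (B * D' * z l) * z i ^ 2 := by
      intro i; split_ifs <;> ring
    rw [Finset.sum_congr rfl fun i _ => this i, Finset.sum_add_distrib, ← Finset.mul_sum, hs,
      Finset.sum_ite_eq' Finset.univ l]
    simp only [Finset.mem_univ, if_true]
    ring
  · simp only [Sh_00, Sh_s0, Sh_ss, Matrix.of_apply, Fin.cases_zero, Fin.cases_succ]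
    have : ∀ i, ((if k = i then C else 0) + D * z k * z i) * (B' * z i) =
        (if k = i then C * B' * z i else 0) + (D * B' * z k) * z i ^ 2 := by
      intro i; split_ifs <;> ring
    rw [Finset.sum_congr rfl fun i _ => this i, Finset.sum_add_distrib, ← Finset.mul_sum, hs,
      Finset.sum_ite_eq Finset.univ k]
    simp only [Finset.mem_univ, if_true]
    ring
  · simp only [Sh_0s, Sh_s0, Sh_ss, Matrix.of_apply, Fin.cases_succ]
    have : ∀ i, ((if k = i then C else 0) + D * z k * z i) *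
        ((if i = l then C' else 0) + D' * z i * z l) =
        (if k = i then (if i = l then C * C' else 0) else 0)
          + (if k = i then C * D' * z i * z l else 0)
          + (if i = l then D * z k * z i * C' else 0) + (D * D' * z k * z l) * z i ^ 2 := by
      intro i; split_ifs <;> ring
    rw [Finset.sum_congr rfl fun i _ => this i, Finset.sum_add_distrib, Finset.sum_add_distrib,
      Finset.sum_add_distrib, ← Finset.mul_sum, hs,
      Finset.sum_ite_eq Finset.univ k, Finset.sum_ite_eq Finset.univ k,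
      Finset.sum_ite_eq' Finset.univ l]
    simp only [Finset.mem_univ, if_true]
    split_ifs <;> ring

lemma Sh_mul_eq_one (A B C D A' B' C' D' : ℝ) (z : Fin m → ℝ) (s : ℝ) (hs : ∑ i, z i ^ 2 = s)
    (h1 : A * A' + B * B' * s = 1) (h2 : A * B' + B * C' + B * D' * s = 0)
    (h3 : B * A' + C * B' + D * B' * s = 0) (h4 : C * C' = 1)
    (h5 : B * B' + C * D' + D * C' + D * D' * s = 0) :
    Sh A B C D z * Sh A' B' C' D' z = 1 := by
  rw [Sh_mul A B C D A' B' C' D' z s hs, h1, h2, h3, h4, h5]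
  ext i j
  refine Fin.cases ?_ (fun k => ?_) i <;> refine Fin.cases ?_ (fun l => ?_) j
  · simp
  · simp [(Fin.succ_ne_zero l).symm]
  · simp [(Fin.succ_ne_zero k)]
  · simp [Matrix.one_apply]

lemma Sh_sum (A B C D A' B' C' D' : ℝ) (z : Fin m → ℝ) (s : ℝ) (hs : ∑ i, z i ^ 2 = s) :
    ∑ i, ∑ j, Sh A B C D z i j * Sh A' B' C' D' z i j =
      A * A' + 2 * B * B' * s + m * C * C' + (C * D' + C' * D) * s + D * D' * s ^ 2 := by
  rw [Fin.sum_univ_succ, Fin.sum_univ_succ]
  simp only [Sh_00, Sh_0s]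
  have e1 : ∑ i : Fin m, B * z i * (B' * z i) = B * B' * s := by
    rw [← hs, Finset.mul_sum]; exact Finset.sum_congr rfl fun i _ => by ring
  have e2 : ∀ k : Fin m, ∑ j, Sh A B C D z k.succ j * Sh A' B' C' D' z k.succ j =
      C * C' + (B * B' + C * D' + C' * D + D * D' * s) * z k ^ 2 := by
    intro k
    rw [Fin.sum_univ_succ]
    simp only [Sh_s0, Sh_ss]
    have : ∀ i, ((if k = i then C else 0) + D * z k * z i) *
        ((if k = i then C' else 0) + D' * z k * z i) =
        (if k = i then C * C' + (C * D' + C' * D) * z k * z i else 0) +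
          (D * D' * z k ^ 2) * z i ^ 2 := by
      intro i; split_ifs <;> ring
    rw [Finset.sum_congr rfl fun i _ => this i, Finset.sum_add_distrib, ← Finset.mul_sum, hs,
      Finset.sum_ite_eq Finset.univ k]
    simp only [Finset.mem_univ, if_true]
    ring
  rw [e1, Finset.sum_congr rfl fun i _ => e2 i, Finset.sum_add_distrib,
    ← Finset.mul_sum (f := fun i => z i ^ 2), hs]
  simp only [Finset.sum_const, Finset.card_univ, Fintype.card_fin, nsmul_eq_mul]
  ring

lemma Sh_det (A B C D : ℝ) (z : Fin m → ℝ) (s : ℝ) (hs : ∑ i, z i ^ 2 = s) (hm : 1 ≤ m)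
    (hA : A ≠ 0) (hC : C ≠ 0) :
    (Sh A B C D z).det = C ^ (m - 1) * (A * C + (A * D - B ^ 2) * s) := by
  obtain ⟨n, rfl⟩ : ∃ n, m = n + 1 := ⟨m - 1, by omega⟩
  -- clear the first column
  let N : Matrix (Fin (n + 1 + 1)) (Fin (n + 1 + 1)) ℝ := Matrix.of fun i j =>
    Fin.cases (Fin.cases A (fun l => B * z l) j)
      (fun k => Fin.cases 0 (fun l => (if k = l then C else 0) + (D - B ^ 2 / A) * z k * z l) j) i
  have h1 : (Sh A B C D z).det = N.det := by
    refine Matrix.det_eq_of_forall_row_eq_smul_add_const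
      (fun i => Fin.cases 0 (fun k => B * z k / A) i) 0 rfl ?_
    intro i j
    refine Fin.cases ?_ (fun k => ?_) i <;> refine Fin.cases ?_ (fun l => ?_) j
    · simp [N, Sh_00]
    · simp [N, Sh_0s]
    · simp only [Sh_s0, N, Matrix.of_apply, Fin.cases_zero, Fin.cases_succ]
      field_simp
      ring
    · simp only [Sh_ss, N, Matrix.of_apply, Fin.cases_zero, Fin.cases_succ]
      field_simp
      ring
  have h2 : N.submatrix Fin.succ Fin.succ = C • ((1 : Matrix (Fin (n+1)) (Fin (n+1)) ℝ) +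
      Matrix.replicateCol Unit (fun k => (D - B ^ 2 / A) / C * z k) *
        Matrix.replicateRow Unit z) := by
    ext k l
    simp only [Matrix.submatrix_apply, N, Matrix.of_apply, Fin.cases_succ, Matrix.smul_apply,
      Matrix.add_apply, Matrix.one_apply, Matrix.mul_apply, Matrix.replicateCol_apply,
      Matrix.replicateRow_apply, Finset.univ_unique, Finset.sum_const, Finset.card_singleton,
      smul_eq_mul, nsmul_eq_mul]
    split_ifs <;> field_simp <;> simp
  have h3 : N.det = A * (N.submatrix Fin.succ Fin.succ).det := by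
    rw [Matrix.det_succ_column_zero, Fin.sum_univ_succ]
    have : ∀ i : Fin (n + 1), (-1 : ℝ) ^ ((i.succ : Fin (n+1+1)) : ℕ) * N i.succ 0 *
        (N.submatrix (Fin.succAbove i.succ) Fin.succ).det = 0 := by
      intro i
      have : N i.succ 0 = 0 := rfl
      rw [this]; ring
    rw [Finset.sum_eq_zero fun i _ => this i]
    have : N 0 0 = A := rfl
    rw [this]
    simp
  have h4 : (N.submatrix Fin.succ Fin.succ).det = C ^ (n + 1) *
      (1 + (D - B ^ 2 / A) / C * s) := by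
    rw [h2, Matrix.det_smul, Matrix.det_one_add_replicateCol_mul_replicateRow]
    simp only [Fintype.card_fin]
    congr 2
    rw [← hs, Finset.mul_sum]
    simp only [dotProduct]
    exact Finset.sum_congr rfl fun i _ => by ring
  rw [h1, h3, h4]
  simp only [Nat.add_sub_cancel, pow_succ]
  field_simp

lemma Sh_posDef (A B C D : ℝ) (z : Fin m → ℝ) (s : ℝ) (hs : ∑ i, z i ^ 2 = s)
    (hA : 0 < A) (hC : 0 < C) (hD : 0 < A * C + (A * D - B ^ 2) * s) :
    (Sh A B C D z).PosDef := by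
  refine Matrix.PosDef.of_dotProduct_mulVec_pos ?_ ?_
  · ext i j
    refine Fin.cases ?_ (fun k => ?_) i <;> refine Fin.cases ?_ (fun l => ?_) j
    · simp
    · simp [Matrix.conjTranspose_apply, Sh_0s, Sh_s0]
    · simp [Matrix.conjTranspose_apply, Sh_0s, Sh_s0]
    · simp only [Matrix.conjTranspose_apply, Sh_ss, star_trivial]
      by_cases h : k = l
      · subst h; ring
      · rw [if_neg h, if_neg (Ne.symm h)]; ring
  · intro x hx
    have hq : star x ⬝ᵥ (Sh A B C D z *ᵥ x) =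
        A * x 0 ^ 2 + 2 * B * x 0 * (∑ k : Fin m, z k * x k.succ) +
          C * (∑ k : Fin m, x k.succ ^ 2) + D * (∑ k : Fin m, z k * x k.succ) ^ 2 := by
      set p := ∑ k : Fin m, z k * x k.succ with hp
      have e0 : (Sh A B C D z *ᵥ x) 0 = A * x 0 + B * p := by
        simp only [Matrix.mulVec, dotProduct, Fin.sum_univ_succ, Sh_00, Sh_0s]
        rw [hp, Finset.mul_sum]
        congr 1
        exact Finset.sum_congr rfl fun i _ => by ring
      have e1 : ∀ k : Fin m, (Sh A B C D z *ᵥ x) k.succ =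
          B * z k * x 0 + C * x k.succ + D * z k * p := by
        intro k
        simp only [Matrix.mulVec, dotProduct, Fin.sum_univ_succ, Sh_s0, Sh_ss]
        have : ∀ i, ((if k = i then C else 0) + D * z k * z i) * x i.succ =
            (if k = i then C * x i.succ else 0) + (D * z k) * (z i * x i.succ) := by
          intro i; split_ifs <;> ring
        rw [Finset.sum_congr rfl fun i _ => this i, Finset.sum_add_distrib,
          Finset.sum_ite_eq Finset.univ k, ← Finset.mul_sum, ← hp]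
        simp only [Finset.mem_univ, if_true]
        ring
      simp only [dotProduct, star_trivial, Fin.sum_univ_succ, e0, e1]
      have : ∀ i : Fin m, x i.succ * (B * z i * x 0 + C * x i.succ + D * z i * p) =
          (B * x 0 + D * p) * (z i * x i.succ) + C * x i.succ ^ 2 := by
        intro i; ring
      rw [Finset.sum_congr rfl fun i _ => this i, Finset.sum_add_distrib, ← Finset.mul_sum, ← hp,
        ← Finset.mul_sum]
      ring
    rw [hq]
    set p := ∑ k : Fin m, z k * x k.succ with hp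
    set q := ∑ k : Fin m, x k.succ ^ 2 with hqd
    have hcs : p ^ 2 ≤ s * q := by
      rw [hp, hqd, ← hs]
      exact Finset.sum_mul_sq_le_sq_mul_sq _ _ _
    have hq0 : 0 ≤ q := Finset.sum_nonneg fun i _ => sq_nonneg _
    have hs0 : 0 ≤ s := by rw [← hs]; exact Finset.sum_nonneg fun i _ => sq_nonneg _
    have key : A * (A * x 0 ^ 2 + 2 * B * x 0 * p + C * q + D * p ^ 2) =
        (A * x 0 + B * p) ^ 2 + (A * D - B ^ 2) * p ^ 2 + A * C * q := by ring
    -- positivity
    have hpos : 0 < A * (A * x 0 ^ 2 + 2 * B * x 0 * p + C * q + D * p ^ 2) := by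
      rw [key]
      rcases eq_or_lt_of_le hq0 with h0 | h0
      · -- q = 0, hence p = 0 and x = (x0, 0)
        have hp0 : p = 0 := by
          have : p ^ 2 ≤ 0 := by rw [← h0] at hcs; simpa using hcs
          exact pow_eq_zero_iff (two_ne_zero) |>.1 (le_antisymm this (sq_nonneg _))
        have hx0 : x 0 ≠ 0 := by
          intro h
          apply hx
          ext i
          refine Fin.cases h (fun k => ?_) i
          have := (Finset.sum_eq_zero_iff_of_nonneg (fun i _ => sq_nonneg (x (Fin.succ i)))).1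
            (hqd ▸ h0.symm) k (Finset.mem_univ k)
          simpa using this
        rw [hp0, ← h0]
        have : 0 < (A * x 0) ^ 2 := by positivity
        nlinarith
      · rcases le_or_gt 0 (A * D - B ^ 2) with h | h
        · have : 0 < A * C * q := by positivity
          have h2 : 0 ≤ (A * D - B ^ 2) * p ^ 2 := by positivity
          have h3 : 0 ≤ (A * x 0 + B * p) ^ 2 := sq_nonneg _
          linarith
        · have h2 : (A * D - B ^ 2) * (s * q) ≤ (A * D - B ^ 2) * p ^ 2 :=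
            mul_le_mul_of_nonpos_left hcs h.le
          have h3 : 0 ≤ (A * x 0 + B * p) ^ 2 := sq_nonneg _
          have h4 : 0 < (A * C + (A * D - B ^ 2) * s) * q := by positivity
          nlinarith
    exact (pos_iff_pos_of_mul_pos hpos).1 hA

/-! ### Calculus for functions of `(x₀, |x'|²)` -/

/-- `|x'|²`. -/
noncomputable def Sq (x : Fin (m + 1) → ℝ) : ℝ := ∑ i : Fin m, x i.succ ^ 2

/-- The linear form `a dx₀ + b d|x'|²` at `x`. -/
noncomputable def Lf (a b : ℝ) (x : Fin (m + 1) → ℝ) : (Fin (m + 1) → ℝ) →L[ℝ] ℝ :=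
  a • ContinuousLinearMap.proj 0 +
    b • ∑ i : Fin m, (2 * x i.succ) • ContinuousLinearMap.proj (R := ℝ) (φ := fun _ => ℝ) i.succ

/-- `f` has differential `a dx₀ + b d|x'|²` at `x`. -/
def PD (f : (Fin (m + 1) → ℝ) → ℝ) (a b : ℝ) (x : Fin (m + 1) → ℝ) : Prop :=
  HasFDerivAt f (Lf a b x) x

lemma Lf_apply (a b : ℝ) (x v : Fin (m + 1) → ℝ) :
    Lf a b x v = a * v 0 + b * ∑ i : Fin m, 2 * x i.succ * v i.succ := by
  simp [Lf]

lemma Lf_single_zero (a b : ℝ) (x : Fin (m + 1) → ℝ) : Lf a b x (Pi.single 0 1) = a := by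
  rw [Lf_apply]
  simp [(Fin.succ_ne_zero _)]

lemma Lf_single_succ (a b : ℝ) (x : Fin (m + 1) → ℝ) (k : Fin m) :
    Lf a b x (Pi.single k.succ 1) = 2 * b * x k.succ := by
  rw [Lf_apply]
  have : ∀ i : Fin m, 2 * x i.succ * (Pi.single k.succ 1 : Fin (m + 1) → ℝ) i.succ =
      if i = k then 2 * x k.succ else 0 := by
    intro i
    by_cases h : i = k
    · subst h; simp
    · rw [Pi.single_apply, if_neg (by simpa using h), if_neg h]; ring
  rw [Finset.sum_congr rfl fun i _ => this i, Finset.sum_ite_eq' Finset.univ k]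
  simp [(Fin.succ_ne_zero _).symm]
  ring

lemma PD.congr {f : (Fin (m + 1) → ℝ) → ℝ} {a b a' b' : ℝ} {x : Fin (m + 1) → ℝ}
    (h : PD f a b x) (ha : a = a') (hb : b = b') : PD f a' b' x := by
  subst ha hb; exact h

lemma PD_const (c : ℝ) (x : Fin (m + 1) → ℝ) : PD (fun _ => c) 0 0 x := by
  unfold PD
  have : Lf 0 0 x = 0 := by ext v; simp [Lf_apply]
  rw [this]
  exact hasFDerivAt_const c x

lemma PD_zero (x : Fin (m + 1) → ℝ) : PD (fun y => y 0) 1 0 x := by
  unfold PD
  have : Lf 1 0 x = ContinuousLinearMap.proj 0 := by ext v; simp [Lf_apply]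
  rw [this]
  exact hasFDerivAt_apply 0 x

lemma PD_Sq (x : Fin (m + 1) → ℝ) : PD Sq 0 1 x := by
  unfold PD
  have h : HasFDerivAt (fun y : Fin (m + 1) → ℝ => ∑ i : Fin m, y i.succ ^ 2)
      (∑ i : Fin m, (2 * x i.succ ^ (2 - 1)) •
        ContinuousLinearMap.proj (R := ℝ) (φ := fun _ => ℝ) i.succ) x := by
    refine HasFDerivAt.fun_sum fun i _ => ?_
    have := (hasFDerivAt_apply (𝕜 := ℝ) (F' := fun _ => ℝ) i.succ x).pow 2
    simpa using this
  have e : Lf 0 1 x = (∑ i : Fin m, (2 * x i.succ ^ (2 - 1)) •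
        ContinuousLinearMap.proj (R := ℝ) (φ := fun _ => ℝ) i.succ) := by
    ext v; simp [Lf_apply]
  rw [e]
  exact h

lemma PD.comp {f : (Fin (m + 1) → ℝ) → ℝ} {a b : ℝ} {x : Fin (m + 1) → ℝ}
    (h : PD f a b x) {φ : ℝ → ℝ} {φ' : ℝ} (hφ : HasDerivAt φ φ' (f x)) :
    PD (fun y => φ (f y)) (φ' * a) (φ' * b) x := by
  unfold PD at *
  have := hφ.comp_hasFDerivAt x h
  have e : Lf (φ' * a) (φ' * b) x = φ' • Lf a b x := by
    ext v; simp [Lf_apply]; ring
  rw [e]
  exact this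

lemma PD.mul {f g : (Fin (m + 1) → ℝ) → ℝ} {a b c d : ℝ} {x : Fin (m + 1) → ℝ}
    (hf : PD f a b x) (hg : PD g c d x) :
    PD (fun y => f y * g y) (a * g x + f x * c) (b * g x + f x * d) x := by
  unfold PD at *
  have := hf.mul hg
  have e : Lf (a * g x + f x * c) (b * g x + f x * d) x = f x • Lf c d x + g x • Lf a b x := by
    ext v; simp [Lf_apply]; ring
  rw [e]
  exact this

lemma PD.add {f g : (Fin (m + 1) → ℝ) → ℝ} {a b c d : ℝ} {x : Fin (m + 1) → ℝ}
    (hf : PD f a b x) (hg : PD g c d x) :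
    PD (fun y => f y + g y) (a + c) (b + d) x := by
  unfold PD at *
  have := hf.add hg
  have e : Lf (a + c) (b + d) x = Lf a b x + Lf c d x := by
    ext v; simp [Lf_apply]; ring
  rw [e]
  exact this

/-- Hessian of a function of `(x₀, |x'|²)`. -/
lemma hess_eq (f ft fs ftt fts fss : (Fin (m + 1) → ℝ) → ℝ)
    (h : ∀ x, PD f (ft x) (fs x) x) (ht : ∀ x, PD ft (ftt x) (fts x) x)
    (hs : ∀ x, PD fs (fts x) (fss x) x) (x : Fin (m + 1) → ℝ) :
    hess f x = Sh (ftt x) (2 * fts x) (2 * fs x) (4 * fss x) (fun i => x i.succ) := by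
  have e0 : (fun y => fderiv ℝ f y (Pi.single 0 1)) = ft := by
    funext y
    rw [(h y).fderiv, Lf_single_zero]
  have es : ∀ l : Fin m, (fun y => fderiv ℝ f y (Pi.single l.succ 1)) =
      fun y => 2 * fs y * y l.succ := by
    intro l
    funext y
    rw [(h y).fderiv, Lf_single_succ]
  have ds : ∀ l : Fin m, HasFDerivAt (fun y : Fin (m + 1) → ℝ => 2 * fs y * y l.succ)
      ((2 * fs x) • ContinuousLinearMap.proj (R := ℝ) (φ := fun _ => ℝ) l.succ +
        x l.succ • ((2 : ℝ) • Lf (fts x) (fss x) x)) x := by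
    intro l
    exact ((hs x).const_mul 2).mul (hasFDerivAt_apply (𝕜 := ℝ) (F' := fun _ => ℝ) l.succ x)
  ext i j
  refine Fin.cases ?_ (fun k => ?_) i <;> refine Fin.cases ?_ (fun l => ?_) j
  · simp only [hess, Matrix.of_apply, Sh_00, e0]
    rw [(ht x).fderiv, Lf_single_zero]
  · simp only [hess, Matrix.of_apply, Sh_0s, es]
    rw [(ds l).fderiv]
    simp only [_root_.add_apply, _root_.smul_apply,
      ContinuousLinearMap.proj_apply, Lf_single_zero, smul_eq_mul]
    rw [Pi.single_apply, if_neg (Fin.succ_ne_zero l)]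
    ring
  · simp only [hess, Matrix.of_apply, Sh_s0, e0]
    rw [(ht x).fderiv, Lf_single_succ]
  · simp only [hess, Matrix.of_apply, Sh_ss, es]
    rw [(ds l).fderiv]
    simp only [_root_.add_apply, _root_.smul_apply,
      ContinuousLinearMap.proj_apply, Lf_single_succ, smul_eq_mul]
    by_cases hkl : k = l
    · subst hkl
      simp
      ring
    · rw [Pi.single_apply, if_neg (by simpa using (Ne.symm hkl)), if_neg hkl]
      ring

lemma alg (k U G G1 G2 h h1 h2 s t P D1 : ℝ) (ht : U ^ 2 = t ^ 2 + G)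
    (hD : D1 = G * G1 + 2 * s * G * G2 - s * G1 ^ 2) (hD0 : D1 ≠ 0) (hG1 : G1 ≠ 0)
    (heq : 2 * s * G * h2 + ((k + 2) * G + (k + 2 + 5) * s * G1
          + 2 * (k + 2 - 1) * s * G * G2 / G1) * h1
          + 1 / 2 * (k + 2 + 1) * (k + 2 + 2) * (G1 + 2 * s * G2) * h = 0) :
    (U * (D1 + t ^ 2 * (G1 + 2 * s * G2)) / D1) *
        ((k + 4) * ((k + 2) * P * t * t * h + P * U ^ 2 * h)) +
      2 * (U * t * G1 / D1) * (2 * ((k + 4) * ((k + 2) / 2 * P * G1 * t * h + P * U ^ 2 * t * h1))) * s +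
      (k + 2) * (U / G1) * (2 * ((k + 4) / 2 * (P * U ^ 2 * G1 * h) + P * U ^ 4 * h1)) +
      ((U / G1) * (4 * ((k + 4) / 2 * ((k + 2) / 2 * P * G1 * G1 * h + P * U ^ 2 * (G2 * h + G1 * h1))
          + (k + 4) / 2 * P * U ^ 2 * G1 * h1 + P * U ^ 4 * h2)) +
        (2 * ((k + 4) / 2 * (P * U ^ 2 * G1 * h) + P * U ^ 4 * h1)) *
          ((U / G1) * (G1 ^ 2 - 2 * G * G2) / D1)) * s +
      (U / G1) * (G1 ^ 2 - 2 * G * G2) / D1 *
        (4 * ((k + 4) / 2 * ((k + 2) / 2 * P * G1 * G1 * h + P * U ^ 2 * (G2 * h + G1 * h1))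
          + (k + 4) / 2 * P * U ^ 2 * G1 * h1 + P * U ^ 4 * h2)) * s ^ 2 = 0 := by
  field_simp at heq
  obtain rfl : G = U ^ 2 - t ^ 2 := by linarith
  field_simp
  subst hD
  linear_combination (4 * P * U ^ 5) * heq

/-! Module E : the PDE part -/
theorem moduleE (m : ℕ) (hm : 9 ≤ m) (δ : ℝ) (G G1 G2 h h1 h2 : ℝ → ℝ) (hδ : 0 < δ)
    (hG : ContDiffOn ℝ (⊤ : ℕ∞) G (Ioi (-δ))) (hh : ContDiffOn ℝ (⊤ : ℕ∞) h (Ioi (-δ)))
    (dG : ∀ s, -δ < s → HasDerivAt G (G1 s) s) (dG1 : ∀ s, -δ < s → HasDerivAt G1 (G2 s) s)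
    (dh : ∀ s, -δ < s → HasDerivAt h (h1 s) s) (dh1 : ∀ s, -δ < s → HasDerivAt h1 (h2 s) s)
    (pos : ∀ s, -δ < s → 0 < G s ∧ 0 < G1 s ∧
        0 < G s * G1 s + 2 * s * G s * G2 s - s * G1 s ^ 2)
    (hdef : ∀ s, -δ < s → h s = (G1 s ^ (m - 1) *
        (G s * G1 s + 2 * s * G s * G2 s - s * G1 s ^ 2)) ^ (-(((m:ℝ) + 2) / (m + 3))))
    (heq : ∀ s, -δ < s →
        2 * s * G s * h2 s + (m * G s + (m + 5) * s * G1 s
          + 2 * (m - 1) * s * G s * G2 s / G1 s) * h1 s
          + 1 / 2 * (m + 1) * (m + 2) * (G1 s + 2 * s * G2 s) * h s = 0) :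
    ∃ u : (Fin (m + 1) → ℝ) → ℝ,
      (∀ x, u x = Real.sqrt (x 0 ^ 2 + G (∑ i : Fin m, x i.succ ^ 2))) ∧
      ContDiff ℝ (⊤ : ℕ∞) u ∧ (∀ x, (hess u x).PosDef) ∧ ∀ x, AMop u x = 0 := by
  have hSq : ∀ x : Fin (m + 1) → ℝ, -δ < Sq x := fun x =>
    lt_of_lt_of_le (by linarith) (Finset.sum_nonneg fun i _ => sq_nonneg (x (Fin.succ i)))
  let U : (Fin (m + 1) → ℝ) → ℝ := fun x => Real.sqrt (x 0 ^ 2 + G (Sq x))
  have hrad : ∀ x : Fin (m + 1) → ℝ, 0 < x 0 ^ 2 + G (Sq x) := fun x => by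
    have := (pos _ (hSq x)).1
    positivity
  have hU : ∀ x, 0 < U x := fun x => Real.sqrt_pos.2 (hrad x)
  have hU2 : ∀ x, U x ^ 2 = x 0 ^ 2 + G (Sq x) := fun x => Real.sq_sqrt (hrad x).le
  -- differential of U
  have pG : ∀ x : Fin (m + 1) → ℝ, PD (fun y => G (Sq y)) 0 (G1 (Sq x)) x := fun x =>
    ((PD_Sq x).comp (dG _ (hSq x))).congr (by ring) (by ring)
  have pG1 : ∀ x : Fin (m + 1) → ℝ, PD (fun y => G1 (Sq y)) 0 (G2 (Sq x)) x := fun x =>
    ((PD_Sq x).comp (dG1 _ (hSq x))).congr (by ring) (by ring)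
  have ph : ∀ x : Fin (m + 1) → ℝ, PD (fun y => h (Sq y)) 0 (h1 (Sq x)) x := fun x =>
    ((PD_Sq x).comp (dh _ (hSq x))).congr (by ring) (by ring)
  have ph1 : ∀ x : Fin (m + 1) → ℝ, PD (fun y => h1 (Sq y)) 0 (h2 (Sq x)) x := fun x =>
    ((PD_Sq x).comp (dh1 _ (hSq x))).congr (by ring) (by ring)
  have prad : ∀ x : Fin (m + 1) → ℝ, PD (fun y => y 0 * y 0 + G (Sq y)) (2 * x 0) (G1 (Sq x)) x :=
    fun x => (((PD_zero x).mul (PD_zero x)).add (pG x)).congr (by ring) (by ring)
  have pU : ∀ x, PD U (x 0 / U x) (G1 (Sq x) / (2 * U x)) x := fun x => by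
    have e : U = fun y => Real.sqrt (y 0 * y 0 + G (Sq y)) := by
      funext y; simp only [U, pow_two]
    have hd := Real.hasDerivAt_sqrt (x := x 0 * x 0 + G (Sq x)) (by
      have := hrad x; rw [pow_two] at this; exact this.ne')
    have := (prad x).comp hd
    have hUx : Real.sqrt (x 0 * x 0 + G (Sq x)) = U x := by simp only [U, pow_two]
    rw [hUx] at this
    rw [e]
    refine this.congr ?_ ?_
    · rw [← e]
      have := (hU x).ne'
      field_simp
    · rw [← e]
      have := (hU x).ne'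
      field_simp
  have pinv : ∀ x, PD (fun y => (U y)⁻¹) (-(x 0) / U x ^ 3) (-(G1 (Sq x)) / (2 * U x ^ 3)) x :=
    fun x => by
      have hd := hasDerivAt_inv (hU x).ne'
      have hne := (hU x).ne'
      refine ((pU x).comp hd).congr ?_ ?_
      · field_simp
      · field_simp
  have ppow : ∀ (k : ℕ) x, PD (fun y => U y ^ (k + 2)) ((k + 2) * U x ^ k * x 0)
      ((k + 2) / 2 * U x ^ k * G1 (Sq x)) x := fun k x => by
    have hd := hasDerivAt_pow (k + 2) (U x)
    have hne := (hU x).ne'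
    refine ((pU x).comp hd).congr ?_ ?_
    · have : k + 2 - 1 = k + 1 := rfl
      rw [this, pow_succ]
      push_cast
      field_simp
    · have : k + 2 - 1 = k + 1 := rfl
      rw [this, pow_succ]
      push_cast
      field_simp
  -- Hessian of U
  have hessU : ∀ x, hess U x = Sh (G (Sq x) / U x ^ 3) (-(x 0) * G1 (Sq x) / U x ^ 3)
      (G1 (Sq x) / U x) (2 * G2 (Sq x) / U x - G1 (Sq x) ^ 2 / U x ^ 3) (fun i => x i.succ) := by
    intro x
    have hne := (hU x).ne'
    rw [hess_eq U (fun x => x 0 * (U x)⁻¹) (fun x => (1 / 2) * (G1 (Sq x) * (U x)⁻¹))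
      (fun x => G (Sq x) / U x ^ 3) (fun x => -(x 0) * G1 (Sq x) / (2 * U x ^ 3))
      (fun x => G2 (Sq x) / (2 * U x) - G1 (Sq x) ^ 2 / (4 * U x ^ 3))]
    · congr 1 <;> field_simp <;> ring
    · intro x
      have hne := (hU x).ne'
      exact (pU x).congr (by field_simp) (by field_simp)
    · intro x
      have hne := (hU x).ne'
      refine ((PD_zero x).mul (pinv x)).congr ?_ ?_
      · have := hU2 x
        field_simp
        linarith
      · field_simp
        ring
    · intro x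
      have hne := (hU x).ne'
      refine ((PD_const (1/2) x).mul ((pG1 x).mul (pinv x))).congr ?_ ?_
      · field_simp
        ring
      · field_simp
        ring
  have e1 : ∀ x, G (Sq x) / U x ^ 3 * (G1 (Sq x) / U x) +
        (G (Sq x) / U x ^ 3 * (2 * G2 (Sq x) / U x - G1 (Sq x) ^ 2 / U x ^ 3) -
          (-(x 0) * G1 (Sq x) / U x ^ 3) ^ 2) * Sq x =
        (G (Sq x) * G1 (Sq x) + 2 * Sq x * G (Sq x) * G2 (Sq x) - Sq x * G1 (Sq x) ^ 2) /
          U x ^ 4 := by
    intro x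
    have hUx := hU x
    have h2 := hU2 x
    have : U x ^ 6 = U x ^ 4 * (x 0 ^ 2 + G (Sq x)) := by rw [← h2]; ring
    field_simp
    rw [h2]
    ring
  refine ⟨U, fun x => rfl, ?_, ?_, ?_⟩
  · -- smoothness
    have hSqs : ContDiff ℝ (⊤ : ℕ∞) (Sq : (Fin (m + 1) → ℝ) → ℝ) := by
      unfold Sq
      fun_prop
    rw [contDiff_iff_contDiffAt]
    intro x
    have hGx : ContDiffAt ℝ (⊤ : ℕ∞) G (Sq x) := hG.contDiffAt (Ioi_mem_nhds (hSq x))
    have h1 : ContDiffAt ℝ (⊤ : ℕ∞) (fun y : Fin (m + 1) → ℝ => G (Sq y)) x :=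
      hGx.comp x hSqs.contDiffAt
    have h2 : ContDiffAt ℝ (⊤ : ℕ∞) (fun y : Fin (m + 1) → ℝ => y 0 ^ 2 + G (Sq y)) x :=
      ContDiffAt.add (by fun_prop) h1
    exact h2.sqrt (hrad x).ne'
  · intro x
    rw [hessU x]
    obtain ⟨p1, p2, p3⟩ := pos _ (hSq x)
    have hUx := hU x
    refine Sh_posDef _ _ _ _ _ (Sq x) rfl (by positivity) (by positivity) ?_
    rw [e1 x]
    positivity
  · have hdet : ∀ x, (hess U x).det = (G1 (Sq x) ^ (m - 1) *
        (G (Sq x) * G1 (Sq x) + 2 * Sq x * G (Sq x) * G2 (Sq x) - Sq x * G1 (Sq x) ^ 2)) /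
          U x ^ (m + 3) := by
      intro x
      obtain ⟨p1, p2, p3⟩ := pos _ (hSq x)
      have hUx := hU x
      rw [hessU x, Sh_det _ _ _ _ _ (Sq x) rfl (by omega) (by positivity) (by positivity), e1 x]
      obtain ⟨k, rfl⟩ : ∃ k, m = k + 1 := ⟨m - 1, by omega⟩
      simp only [Nat.add_sub_cancel]
      rw [div_pow]
      field_simp
      ring
    have hW : affW U = fun x => U x ^ (m + 2) * h (Sq x) := by
      funext x
      obtain ⟨p1, p2, p3⟩ := pos _ (hSq x)
      have hUx := hU x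
      rw [affW, hdet x, Real.div_rpow (by positivity) (by positivity)]
      have e : -((((m + 1 : ℕ) : ℝ) + 1) / (((m + 1 : ℕ) : ℝ) + 2)) = -(((m:ℝ) + 2) / (m + 3)) := by
        push_cast; ring_nf
      rw [e, ← hdef _ (hSq x)]
      have e2 : (U x ^ (m + 3)) ^ (-(((m:ℝ) + 2) / (m + 3))) = (U x ^ (m + 2))⁻¹ := by
        rw [Real.rpow_neg (by positivity), ← Real.rpow_natCast, ← Real.rpow_mul hUx.le,
          ← Real.rpow_natCast]
        congr 2
        push_cast
        field_simp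
      rw [e2]
      field_simp
    intro x
    obtain ⟨k, rfl⟩ : ∃ k, m = k + 2 := ⟨m - 2, by omega⟩
    -- Hessian of the weight
    have hessW : hess (affW U) x =
        Sh (((k:ℝ) + 4) * ((k + 2) * U x ^ k * x 0 * x 0 * h (Sq x) + U x ^ k * U x ^ 2 * h (Sq x)))
          (2 * (((k:ℝ) + 4) * ((k + 2) / 2 * U x ^ k * G1 (Sq x) * x 0 * h (Sq x) +
            U x ^ k * U x ^ 2 * x 0 * h1 (Sq x))))
          (2 * (((k:ℝ) + 4) / 2 * (U x ^ k * U x ^ 2 * G1 (Sq x) * h (Sq x)) +
            U x ^ k * U x ^ 4 * h1 (Sq x)))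
          (4 * (((k:ℝ) + 4) / 2 * ((k + 2) / 2 * U x ^ k * G1 (Sq x) * G1 (Sq x) * h (Sq x) +
            U x ^ k * U x ^ 2 * (G2 (Sq x) * h (Sq x) + G1 (Sq x) * h1 (Sq x))) +
            (k + 4) / 2 * U x ^ k * U x ^ 2 * G1 (Sq x) * h1 (Sq x) +
            U x ^ k * U x ^ 4 * h2 (Sq x))) (fun i => x i.succ) := by
      rw [hW]
      refine hess_eq (fun x => U x ^ (k + 2 + 2) * h (Sq x))
        (fun x => ((k:ℝ) + 4) * (U x ^ (k + 2) * (x 0 * h (Sq x))))
        (fun x => ((k:ℝ) + 4) / 2 * (U x ^ (k + 2) * (G1 (Sq x) * h (Sq x))) +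
          U x ^ (k + 2 + 2) * h1 (Sq x))
        (fun x => ((k:ℝ) + 4) * ((k + 2) * U x ^ k * x 0 * x 0 * h (Sq x) +
          U x ^ k * U x ^ 2 * h (Sq x)))
        (fun x => ((k:ℝ) + 4) * ((k + 2) / 2 * U x ^ k * G1 (Sq x) * x 0 * h (Sq x) +
            U x ^ k * U x ^ 2 * x 0 * h1 (Sq x)))
        (fun x => ((k:ℝ) + 4) / 2 * ((k + 2) / 2 * U x ^ k * G1 (Sq x) * G1 (Sq x) * h (Sq x) +
            U x ^ k * U x ^ 2 * (G2 (Sq x) * h (Sq x) + G1 (Sq x) * h1 (Sq x))) +
            (k + 4) / 2 * U x ^ k * U x ^ 2 * G1 (Sq x) * h1 (Sq x) +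
            U x ^ k * U x ^ 4 * h2 (Sq x)) ?_ ?_ ?_ x |>.trans ?_
      · intro x
        refine ((ppow (k + 2) x).mul (ph x)).congr ?_ ?_
        · push_cast; ring
        · push_cast; ring
      · intro x
        refine ((PD_const ((k:ℝ) + 4) x).mul ((ppow k x).mul ((PD_zero x).mul (ph x)))).congr ?_ ?_
        · ring
        · ring
      · intro x
        refine (((PD_const (((k:ℝ) + 4) / 2) x).mul ((ppow k x).mul ((pG1 x).mul (ph x)))).add
          ((ppow (k + 2) x).mul (ph1 x))).congr ?_ ?_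
        · push_cast; ring
        · push_cast; ring
      · congr 1
        ring
    obtain ⟨p1, p2, p3⟩ := pos _ (hSq x)
    have hUx := hU x
    have hUU := hU2 x
    set D1 := G (Sq x) * G1 (Sq x) + 2 * Sq x * G (Sq x) * G2 (Sq x) - Sq x * G1 (Sq x) ^ 2
      with hD1
    have hinv : (hess U x)⁻¹ = Sh (U x * (D1 + x 0 ^ 2 * (G1 (Sq x) + 2 * Sq x * G2 (Sq x))) / D1)
        (U x * x 0 * G1 (Sq x) / D1) (U x / G1 (Sq x))
        (U x / G1 (Sq x) * (G1 (Sq x) ^ 2 - 2 * G (Sq x) * G2 (Sq x)) / D1)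
        (fun i => x i.succ) := by
      refine Matrix.inv_eq_right_inv ?_
      rw [hessU x]
      have hG : G (Sq x) = U x ^ 2 - x 0 ^ 2 := by linarith
      refine Sh_mul_eq_one _ _ _ _ _ _ _ _ _ (Sq x) rfl ?_ ?_ ?_ ?_ ?_
      · field_simp
        rw [hD1, hG]
        ring
      · field_simp
        rw [hD1, hG]
        ring
      · field_simp
        rw [hD1, hG]
        ring
      · field_simp
      · field_simp
        rw [hD1, hG]
        ring
    rw [AMop]
    simp_rw [mul_assoc ((hess U x).det)]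
    simp_rw [← Finset.mul_sum]
    rw [hinv, hessW, Sh_sum _ _ _ _ _ _ _ _ _ (Sq x) rfl]
    refine mul_eq_zero_of_right _ ?_
    have key := alg k (U x) (G (Sq x)) (G1 (Sq x)) (G2 (Sq x)) (h (Sq x)) (h1 (Sq x)) (h2 (Sq x))
      (Sq x) (x 0) (U x ^ k) D1 hUU hD1 p3.ne' p2.ne' (by
        have := heq _ (hSq x)
        push_cast at this
        exact this)
    push_cast
    linear_combination key

end P252
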