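import Vale.Agent.P252.Ode
import Vale.Agent.P252.GH
import Vale.Agent.P252.PDE

open Set

namespace P252

/-- auxiliary: the restriction of a quadratic polynomial to a coordinate line -/
theorem quad_line {n : ℕ} (A : Matrix (Fin n) (Fin n) ℝ) (b : Fin n → ℝ) (c : ℝ) (i : Fin n)
    (t : ℝ) :
    1 / 2 * ((Pi.single i t : Fin n → ℝ) ⬝ᵥ A.mulVec (Pi.single i t)) + b ⬝ᵥ (Pi.single i t) + c
      = 1 / 2 * (A i i) * t ^ 2 + b i * t + c := by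
  rw [single_dotProduct, Matrix.mulVec_single, dotProduct_single]
  simp
  ring

theorem sqrt_not_quad (p q r : ℝ) (h : ∀ t : ℝ, Real.sqrt (t ^ 2 + 1) = p * t ^ 2 + q * t + r) :
    False := by
  have h0 := h 0
  have h1 := h 1
  have h2 := h (-1)
  have h3 := h 7
  have h4 := h (-7)
  simp at h0
  have hr : r = 1 := by linarith
  have e1 : Real.sqrt (1 ^ 2 + 1) = Real.sqrt 2 := by norm_num
  have e3 : Real.sqrt (7 ^ 2 + 1) = 5 * Real.sqrt 2 := by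
    rw [show (7:ℝ) ^ 2 + 1 = 5 ^ 2 * 2 by norm_num, Real.sqrt_mul (by norm_num),
      Real.sqrt_sq (by norm_num)]
  have e2 : Real.sqrt ((-1) ^ 2 + 1) = Real.sqrt 2 := by norm_num
  have e4 : Real.sqrt ((-7) ^ 2 + 1) = 5 * Real.sqrt 2 := by
    rw [show (-7:ℝ) ^ 2 + 1 = 5 ^ 2 * 2 by norm_num, Real.sqrt_mul (by norm_num),
      Real.sqrt_sq (by norm_num)]
  rw [e1] at h1
  rw [e2] at h2
  rw [e3] at h3
  rw [e4] at h4
  have hs : Real.sqrt 2 * Real.sqrt 2 = 2 := Real.mul_self_sqrt (by norm_num)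
  have hp : p = Real.sqrt 2 - 1 := by linarith
  have hp2 : 49 * p = 5 * Real.sqrt 2 - 1 := by linarith
  have : Real.sqrt 2 = 48 / 44 := by linarith
  rw [this] at hs
  norm_num at hs

theorem final_aux (m : ℕ) (hm : 9 ≤ m) :
    ∃ u : (Fin (m + 1) → ℝ) → ℝ, ContDiff ℝ (⊤ : ℕ∞) u ∧ (∀ x, (hess u x).PosDef) ∧
      (∀ x, AMop u x = 0) ∧
      ¬ ∃ (A : Matrix (Fin (m + 1)) (Fin (m + 1)) ℝ) (b : Fin (m + 1) → ℝ) (c : ℝ),
          ∀ x, u x = 1 / 2 * (x ⬝ᵥ A.mulVec x) + b ⬝ᵥ x + c := by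
  obtain ⟨δ, G, G1, G2, h, h1, h2, hδ, hG, hh, hG0, dG, dG1, dh, dh1, pos, hdef, heq⟩ :=
    moduleD_of m hm (moduleC' m hm)
  obtain ⟨u, hu, hsm, hpd, ham⟩ :=
    moduleE m hm δ G G1 G2 h h1 h2 hδ hG hh dG dG1 dh dh1 pos hdef heq
  refine ⟨u, hsm, hpd, ham, ?_⟩
  rintro ⟨A, b, c, hq⟩
  refine sqrt_not_quad (1 / 2 * A 0 0) (b 0) c fun t => ?_
  have e := hq (Pi.single 0 t)
  rw [quad_line] at e
  rw [← e, hu]
  have : (∑ i : Fin m, (Pi.single 0 t : Fin (m + 1) → ℝ) i.succ ^ 2) = 0 := by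
    apply Finset.sum_eq_zero
    intro i _
    rw [Pi.single_eq_of_ne (Fin.succ_ne_zero i)]
    norm_num
  rw [this, hG0]
  simp

end P252
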