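import Mathlib

/-! The kernel integral used in modules A, B, C. -/

namespace P252

/-- kernel integral `I_N[g](s) = ∫_0^1 2 θ^N g(θ² s) dθ` -/
noncomputable def Ker (N : ℕ) (g : ℝ → ℝ) (s : ℝ) : ℝ :=
  ∫ θ in (0:ℝ)..1, 2 * θ ^ N * g (θ ^ 2 * s)

end P252
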