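import Vale.Agent.P252.Ker

open Set MeasureTheory Filter Topology intervalIntegral

namespace P252

/-! ### continuity and differentiability under the integral on `(-δ, ∞)` -/

/-- bound of a function on a compact interval inside the domain -/
theorem exists_bound {g : ℝ → ℝ} {δ : ℝ} (hδ : 0 < δ) (hg : ContinuousOn g (Ioi (-δ)))
    {s0 : ℝ} (hs0 : -δ < s0) :
    ∃ C : ℝ, 0 ≤ C ∧ ∃ V ∈ 𝓝 s0, ∀ s ∈ V, -δ < s ∧ ∀ θ ∈ Icc (0:ℝ) 1, |g (θ ^ 2 * s)| ≤ C := by
  obtain ⟨a, ha1, ha2⟩ := exists_between (lt_min (neg_lt_zero.mpr hδ) hs0)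
  have ha0 : a < 0 := lt_of_lt_of_le ha2 (min_le_left _ _)
  have has : a < s0 := lt_of_lt_of_le ha2 (min_le_right _ _)
  have hsub : Icc a (|s0| + 1) ⊆ Ioi (-δ) := fun x hx => lt_of_lt_of_le ha1 hx.1
  obtain ⟨C, hC⟩ := (isCompact_Icc (a := a) (b := |s0| + 1)).exists_bound_of_continuousOn
    (hg.mono hsub)
  refine ⟨|C|, abs_nonneg _, Ioo a (|s0| + 1),
    Ioo_mem_nhds has (lt_of_le_of_lt (le_abs_self _) (lt_add_one _)), ?_⟩
  intro s hs
  refine ⟨ha1.trans hs.1, ?_⟩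
  intro θ hθ
  have h1 : 0 ≤ θ ^ 2 := sq_nonneg _
  have h2 : θ ^ 2 ≤ 1 := by nlinarith [hθ.1, hθ.2]
  have hmem : θ ^ 2 * s ∈ Icc a (|s0| + 1) := by
    constructor
    · rcases le_total 0 s with h | h
      · nlinarith [mul_nonneg h1 h]
      · nlinarith [hs.1]
    · rcases le_total 0 s with h | h
      · nlinarith [hs.2]
      · nlinarith [mul_nonneg h1 (neg_nonneg.mpr h), abs_nonneg s0]
  exact (Real.norm_eq_abs _ ▸ hC _ hmem).trans (le_abs_self C)

theorem dom_mul {δ s θ : ℝ} (hδ : 0 < δ) (hs : -δ < s) (hθ : θ ∈ Icc (0:ℝ) 1) :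
    -δ < θ ^ 2 * s := by
  have h1 : 0 ≤ θ ^ 2 := sq_nonneg _
  have h2 : θ ^ 2 ≤ 1 := by nlinarith [hθ.1, hθ.2]
  rcases le_total 0 s with h | h
  · nlinarith [mul_nonneg h1 h]
  · nlinarith

theorem contOn_int {g : ℝ → ℝ} {δ : ℝ} (hδ : 0 < δ) (hg : ContinuousOn g (Ioi (-δ)))
    (N : ℕ) {s : ℝ} (hs : -δ < s) :
    ContinuousOn (fun θ : ℝ => 2 * θ ^ N * g (θ ^ 2 * s)) (Icc (0:ℝ) 1) := by
  refine ContinuousOn.mul (by fun_prop) ?_
  refine hg.comp (by fun_prop) ?_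
  intro θ hθ
  exact dom_mul hδ hs hθ

theorem meas_int {g : ℝ → ℝ} {δ : ℝ} (hδ : 0 < δ) (hg : ContinuousOn g (Ioi (-δ)))
    (N : ℕ) {s : ℝ} (hs : -δ < s) :
    AEStronglyMeasurable (fun θ : ℝ => 2 * θ ^ N * g (θ ^ 2 * s))
      (volume.restrict (uIoc (0:ℝ) 1)) := by
  rw [uIoc_of_le zero_le_one]
  exact ((contOn_int hδ hg N hs).mono Ioc_subset_Icc_self).aestronglyMeasurable
    measurableSet_Ioc

theorem intble_int {g : ℝ → ℝ} {δ : ℝ} (hδ : 0 < δ) (hg : ContinuousOn g (Ioi (-δ)))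
    (N : ℕ) {s : ℝ} (hs : -δ < s) :
    IntervalIntegrable (fun θ : ℝ => 2 * θ ^ N * g (θ ^ 2 * s)) volume 0 1 := by
  apply ContinuousOn.intervalIntegrable
  rw [uIcc_of_le zero_le_one]
  exact contOn_int hδ hg N hs

theorem ker_continuousOn {g : ℝ → ℝ} {δ : ℝ} (hδ : 0 < δ) (hg : ContinuousOn g (Ioi (-δ)))
    (N : ℕ) : ContinuousOn (Ker N g) (Ioi (-δ)) := by
  intro s0 hs0
  apply ContinuousAt.continuousWithinAt
  obtain ⟨C, hC0, V, hV, hVs⟩ := exists_bound hδ hg hs0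
  unfold Ker
  apply continuousAt_of_dominated_interval (bound := fun _ => 2 * C)
  · filter_upwards [hV] with s hs
    exact meas_int hδ hg N (hVs s hs).1
  · filter_upwards [hV] with s hs
    filter_upwards with θ hθ
    rw [uIoc_of_le zero_le_one] at hθ
    have hθ' : θ ∈ Icc (0:ℝ) 1 := Ioc_subset_Icc_self hθ
    have h1 := (hVs s hs).2 θ hθ'
    have h2 : |θ ^ N| ≤ 1 := by
      rw [abs_of_nonneg (pow_nonneg hθ'.1 _)]
      exact pow_le_one₀ hθ'.1 hθ'.2
    rw [Real.norm_eq_abs, abs_mul, abs_mul, abs_two]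
    have h3 : 0 ≤ |θ ^ N| := abs_nonneg _
    nlinarith [mul_le_mul h2 h1 (abs_nonneg _) zero_le_one]
  · exact intervalIntegrable_const
  · filter_upwards with θ hθ
    rw [uIoc_of_le zero_le_one] at hθ
    have hθ' : θ ∈ Icc (0:ℝ) 1 := Ioc_subset_Icc_self hθ
    have h4 : ContinuousAt g (θ ^ 2 * s0) :=
      hg.continuousAt (Ioi_mem_nhds (dom_mul hδ hs0 hθ'))
    have h5 : ContinuousAt (fun s : ℝ => g (θ ^ 2 * s)) s0 :=
      ContinuousAt.comp (f := fun s : ℝ => θ ^ 2 * s) h4 (by fun_prop)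
    exact ContinuousAt.mul continuousAt_const h5

theorem ker_hasDerivAt {g g' : ℝ → ℝ} {δ : ℝ} (hδ : 0 < δ)
    (hd : ∀ s, -δ < s → HasDerivAt g (g' s) s) (hg' : ContinuousOn g' (Ioi (-δ)))
    (N : ℕ) {s0 : ℝ} (hs0 : -δ < s0) :
    HasDerivAt (Ker N g) (Ker (N + 2) g' s0) s0 := by
  have hg : ContinuousOn g (Ioi (-δ)) := fun s hs =>
    (hd s hs).continuousAt.continuousWithinAt
  obtain ⟨C, hC0, V, hV, hVs⟩ := exists_bound hδ hg' hs0
  unfold Ker
  refine (intervalIntegral.hasDerivAt_integral_of_dominated_loc_of_deriv_le (μ := volume)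
    (F := fun s θ => 2 * θ ^ N * g (θ ^ 2 * s))
    (F' := fun s θ => 2 * θ ^ (N + 2) * g' (θ ^ 2 * s)) (bound := fun _ => 2 * C) hV
    ?_ ?_ ?_ ?_ ?_ ?_).2
  · filter_upwards [hV] with s hs
    exact meas_int hδ hg N (hVs s hs).1
  · exact intble_int hδ hg N hs0
  · exact meas_int hδ hg' (N + 2) hs0
  · filter_upwards with θ hθ s hs
    rw [uIoc_of_le zero_le_one] at hθ
    have hθ' : θ ∈ Icc (0:ℝ) 1 := Ioc_subset_Icc_self hθ
    have h1 := (hVs s hs).2 θ hθ'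
    have h2 : |θ ^ (N + 2)| ≤ 1 := by
      rw [abs_of_nonneg (pow_nonneg hθ'.1 _)]
      exact pow_le_one₀ hθ'.1 hθ'.2
    rw [Real.norm_eq_abs, abs_mul, abs_mul, abs_two]
    have h3 : 0 ≤ |θ ^ (N + 2)| := abs_nonneg _
    nlinarith [mul_le_mul h2 h1 (abs_nonneg _) zero_le_one]
  · exact intervalIntegrable_const
  · filter_upwards with θ hθ s hs
    rw [uIoc_of_le zero_le_one] at hθ
    have hθ' : θ ∈ Icc (0:ℝ) 1 := Ioc_subset_Icc_self hθ
    have h4 : HasDerivAt g (g' (θ ^ 2 * s)) (θ ^ 2 * s) := hd _ (dom_mul hδ (hVs s hs).1 hθ')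
    have h5 : HasDerivAt (fun s : ℝ => θ ^ 2 * s) (θ ^ 2) s := by
      simpa using (hasDerivAt_id s).const_mul (θ ^ 2)
    have h6 := (HasDerivAt.comp s h4 h5).const_mul (2 * θ ^ N)
    refine h6.congr_deriv ?_
    ring

theorem ker_contDiffOn {δ : ℝ} (hδ : 0 < δ) (k : ℕ) :
    ∀ (N : ℕ) (g : ℝ → ℝ), ContDiffOn ℝ k g (Ioi (-δ)) →
      ContDiffOn ℝ k (Ker N g) (Ioi (-δ)) := by
  induction k with
  | zero =>
    intro N g hg
    have h0 : ContinuousOn g (Ioi (-δ)) := hg.continuousOn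
    have h1 := ker_continuousOn hδ h0 N
    exact_mod_cast contDiffOn_zero.mpr h1
  | succ k ih =>
    intro N g hg
    have hcast : ((k + 1 : ℕ) : WithTop ℕ∞) = (k : WithTop ℕ∞) + 1 := by push_cast; rfl
    rw [hcast] at hg ⊢
    rw [contDiffOn_succ_iff_deriv_of_isOpen isOpen_Ioi] at hg ⊢
    obtain ⟨hd, -, hc⟩ := hg
    have hd' : ∀ s, -δ < s → HasDerivAt g (deriv g s) s := fun s hs =>
      (hd.differentiableAt (Ioi_mem_nhds hs)).hasDerivAt
    have hK : ∀ s, -δ < s → HasDerivAt (Ker N g) (Ker (N + 2) (deriv g) s) s := fun s hs =>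
      ker_hasDerivAt hδ hd' hc.continuousOn N hs
    refine ⟨fun s hs => (hK s hs).differentiableAt.differentiableWithinAt, ?_, ?_⟩
    · intro h
      exact absurd h (by simp)
    · exact (ih (N + 2) (deriv g) hc).congr fun s hs => (hK s hs).deriv

/-! ### Module B, derivative -/

theorem ker_continuous {g : ℝ → ℝ} (hg : Continuous g) (N : ℕ) : Continuous (Ker N g) := by
  unfold Ker
  apply continuous_parametric_intervalIntegral_of_continuous'
  fun_prop

/-- substitution for `s > 0` -/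
theorem mul_ker_pos (N : ℕ) (hN : 1 ≤ N) (g : ℝ → ℝ) (hg : Continuous g) {s : ℝ} (hs : 0 < s) :
    s * Ker N g s = s ^ (-(((N : ℝ) - 1) / 2)) * ∫ t in (0:ℝ)..s, t ^ (((N : ℝ) - 1) / 2) * g t := by
  set κ : ℝ := ((N : ℝ) - 1) / 2 with hκ
  have hN' : (1:ℝ) ≤ N := by exact_mod_cast hN
  have hκ0 : 0 ≤ κ := by rw [hκ]; linarith
  have hcont : Continuous fun t : ℝ => t ^ κ * g t :=
    (Real.continuous_rpow_const hκ0).mul hg
  have hsub := intervalIntegral.integral_comp_mul_deriv (a := (0:ℝ)) (b := 1)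
    (f := fun θ : ℝ => θ ^ 2 * s) (f' := fun θ : ℝ => 2 * θ * s)
    (g := fun t : ℝ => t ^ κ * g t)
    (fun θ _ => by
      have := ((hasDerivAt_pow 2 θ).mul_const s)
      simpa using this)
    (by fun_prop) hcont
  have h0 : (0:ℝ) ^ 2 * s = 0 := by ring
  have h1 : (1:ℝ) ^ 2 * s = s := by ring
  simp only [h0, h1] at hsub
  rw [← hsub]
  unfold Ker
  rw [← intervalIntegral.integral_const_mul, ← intervalIntegral.integral_const_mul]
  apply intervalIntegral.integral_congr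
  intro θ hθ
  rw [uIcc_of_le zero_le_one] at hθ
  simp only [Function.comp]
  have hθ0 : 0 ≤ θ := hθ.1
  have e1 : (θ ^ 2 * s) ^ κ = θ ^ (N - 1) * s ^ κ := by
    rw [Real.mul_rpow (sq_nonneg _) hs.le]
    congr 1
    rw [← Real.rpow_natCast θ 2, ← Real.rpow_mul hθ0, ← Real.rpow_natCast θ (N - 1)]
    congr 1
    rw [Nat.cast_sub hN, hκ]
    push_cast
    ring
  have e2 : θ ^ N = θ ^ (N - 1) * θ := by
    rw [← pow_succ, Nat.sub_add_cancel hN]
  have e3 : s ^ (-κ) * s ^ κ = 1 := by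
    rw [← Real.rpow_add hs]; simp
  rw [e1, e2]
  calc s * (2 * (θ ^ (N - 1) * θ) * g (θ ^ 2 * s))
      = 1 * (θ ^ (N - 1) * g (θ ^ 2 * s) * (2 * θ * s)) := by ring
    _ = (s ^ (-κ) * s ^ κ) * (θ ^ (N - 1) * g (θ ^ 2 * s) * (2 * θ * s)) := by rw [e3]
    _ = _ := by ring

theorem deriv_pos (N : ℕ) (hN : 1 ≤ N) (g : ℝ → ℝ) (hg : Continuous g) {s : ℝ} (hs : 0 < s) :
    HasDerivAt (fun s => s * Ker N g s) (g s - ((N : ℝ) - 1) / 2 * Ker N g s) s := by
  set κ : ℝ := ((N : ℝ) - 1) / 2 with hκ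
  have hN' : (1:ℝ) ≤ N := by exact_mod_cast hN
  have hκ0 : 0 ≤ κ := by rw [hκ]; linarith
  have hcont : Continuous fun t : ℝ => t ^ κ * g t :=
    (Real.continuous_rpow_const hκ0).mul hg
  have hI : HasDerivAt (fun s => ∫ t in (0:ℝ)..s, t ^ κ * g t) (s ^ κ * g s) s :=
    intervalIntegral.integral_hasDerivAt_right (hcont.intervalIntegrable _ _)
      (hcont.stronglyMeasurableAtFilter _ _) hcont.continuousAt
  have hp : HasDerivAt (fun s : ℝ => s ^ (-κ)) (-κ * s ^ (-κ - 1)) s :=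
    Real.hasDerivAt_rpow_const (Or.inl hs.ne')
  have hprod := hp.mul hI
  have heq : (fun s => s * Ker N g s) =ᶠ[𝓝 s]
      (fun s : ℝ => s ^ (-κ)) * (fun s => ∫ t in (0:ℝ)..s, t ^ κ * g t) := by
    filter_upwards [Ioi_mem_nhds hs] with x hx
    exact mul_ker_pos N hN g hg hx
  refine (hprod.congr_of_eventuallyEq heq).congr_deriv ?_
  have hk := mul_ker_pos N hN g hg hs
  rw [← hκ] at hk
  have e1 : s ^ (-κ - 1) = s ^ (-κ) / s := by
    rw [Real.rpow_sub hs, Real.rpow_one]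
  have e3 : s ^ (-κ) * s ^ κ = 1 := by
    rw [← Real.rpow_add hs]; simp
  have e4 : Ker N g s = (s ^ (-κ) * ∫ t in (0:ℝ)..s, t ^ κ * g t) / s := by
    rw [← hk]; field_simp
  rw [e4, e1]
  calc -κ * (s ^ (-κ) / s) * (∫ t in (0:ℝ)..s, t ^ κ * g t) + s ^ (-κ) * (s ^ κ * g s)
      = (s ^ (-κ) * s ^ κ) * g s - κ * ((s ^ (-κ) * ∫ t in (0:ℝ)..s, t ^ κ * g t) / s) := by ring
    _ = _ := by rw [e3]; ring

theorem ker_reflect (N : ℕ) (g : ℝ → ℝ) (s : ℝ) :
    Ker N g s = Ker N (fun t => g (-t)) (-s) := by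
  unfold Ker
  apply intervalIntegral.integral_congr
  intro θ _
  simp only
  rw [show -(θ ^ 2 * -s) = θ ^ 2 * s by ring]

theorem ker_zero (N : ℕ) (g : ℝ → ℝ) : Ker N g 0 = 2 * g 0 / ((N : ℝ) + 1) := by
  unfold Ker
  simp only [mul_zero]
  rw [intervalIntegral.integral_mul_const, intervalIntegral.integral_const_mul, integral_pow]
  simp
  ring

theorem moduleB_deriv (N : ℕ) (hN : 1 ≤ N) (g : ℝ → ℝ) (hg : Continuous g) (s : ℝ) :
    HasDerivAt (fun s => s * Ker N g s) (g s - ((N : ℝ) - 1) / 2 * Ker N g s) s := by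
  rcases lt_trichotomy s 0 with hs | hs | hs
  · have hg' : Continuous fun t => g (-t) := hg.comp continuous_neg
    have h1 := deriv_pos N hN _ hg' (neg_pos.mpr hs)
    have h2 : HasDerivAt (fun s : ℝ => -s) (-1) s := hasDerivAt_neg s
    have h3 := (HasDerivAt.comp s h1 h2).neg
    have heq : (fun s => s * Ker N g s) = fun x => -((fun s => s * Ker N (fun t => g (-t)) s) ∘
        fun s => -s) x := by
      funext x
      simp only [Function.comp]
      rw [ker_reflect N g x]; ring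
    rw [heq]
    refine h3.congr_deriv ?_
    rw [← ker_reflect N g s, neg_neg]; ring
  · subst hs
    have hc : Continuous (Ker N g) := ker_continuous hg N
    have hN' : (0:ℝ) < (N : ℝ) + 1 := by positivity
    have hval : g 0 - ((N : ℝ) - 1) / 2 * Ker N g 0 = Ker N g 0 := by
      rw [ker_zero]; field_simp; ring
    rw [hval, hasDerivAt_iff_tendsto_slope]
    have h1 : Tendsto (Ker N g) (𝓝[≠] 0) (𝓝 (Ker N g 0)) :=
      (hc.tendsto 0).mono_left nhdsWithin_le_nhds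
    refine h1.congr' ?_
    filter_upwards [self_mem_nhdsWithin] with x hx
    rw [slope_def_field]
    have hx0 : x ≠ 0 := hx
    field_simp
    ring
  · exact deriv_pos N hN g hg hs

/-! ### Module B, smoothness -/

theorem moduleB_smooth (F : (Fin 3 → ℝ) → (Fin 3 → ℝ)) (hF : Continuous F)
    (v0 : Fin 3 → ℝ) (N : Fin 3 → ℕ) (hN : ∀ i, 1 ≤ N i)
    (v : ℝ → (Fin 3 → ℝ)) (hv : Continuous v)
    (hfix : ∀ s i, v s i = v0 i + s * Ker (N i) (fun t => F (v t) i) s)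
    (δ : ℝ) (hδ : 0 < δ) (O : Set (Fin 3 → ℝ)) (hO : IsOpen O)
    (hvO : ∀ s, -δ < s → v s ∈ O) (hFO : ContDiffOn ℝ (⊤ : ℕ∞) F O) :
    ContDiffOn ℝ (⊤ : ℕ∞) v (Ioi (-δ)) := by
  have hcont : ∀ i, Continuous fun t => F (v t) i := fun i =>
    (continuous_apply i).comp (hF.comp hv)
  have hder : ∀ i s, HasDerivAt (fun t => v t i)
      (F (v s) i - ((N i : ℝ) - 1) / 2 * Ker (N i) (fun t => F (v t) i) s) s := by
    intro i s
    have h1 := (moduleB_deriv (N i) (hN i) _ (hcont i) s).const_add (v0 i)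
    have h2 : (fun t => v t i) = fun t => v0 i + t * Ker (N i) (fun t => F (v t) i) t := by
      funext t; exact hfix t i
    rw [h2]; exact h1
  have key : ∀ k : ℕ, ContDiffOn ℝ k v (Ioi (-δ)) := by
    intro k
    induction k with
    | zero => exact_mod_cast contDiffOn_zero.mpr hv.continuousOn
    | succ k ih =>
      have hFv : ∀ i, ContDiffOn ℝ k (fun t => F (v t) i) (Ioi (-δ)) := by
        intro i
        have h1 : ContDiffOn ℝ k F O := hFO.of_le (by exact_mod_cast le_top)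
        have h2 : ContDiffOn ℝ k (fun t => F (v t)) (Ioi (-δ)) :=
          h1.comp ih (fun s hs => hvO s hs)
        exact contDiffOn_pi.mp h2 i
      rw [contDiffOn_pi]
      intro i
      have hcast : ((k + 1 : ℕ) : WithTop ℕ∞) = (k : WithTop ℕ∞) + 1 := by push_cast; rfl
      rw [hcast, contDiffOn_succ_iff_deriv_of_isOpen isOpen_Ioi]
      refine ⟨fun s _ => (hder i s).differentiableAt.differentiableWithinAt, ?_, ?_⟩
      · intro h
        exact absurd h (by simp)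
      · have h3 : ContDiffOn ℝ k (fun s => F (v s) i - ((N i : ℝ) - 1) / 2 *
            Ker (N i) (fun t => F (v t) i) s) (Ioi (-δ)) :=
          (hFv i).sub (contDiffOn_const.mul (ker_contDiffOn hδ k (N i) _ (hFv i)))
        exact h3.congr fun s _ => (hder i s).deriv
  rw [contDiffOn_infty]
  exact key

end P252
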