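import Vale.Agent.P252.Ker
import Vale.Agent.P252.Smooth

/-! Module A: the Volterra type fixed point equation with bounded Lipschitz right-hand side. -/

open Set MeasureTheory Filter Topology intervalIntegral

namespace P252

theorem ker_abs_le {g : ℝ → ℝ} {M : ℝ} (hM : ∀ t, |g t| ≤ M) (N : ℕ) (s : ℝ) :
    |Ker N g s| ≤ 2 * M := by
  unfold Ker
  have h : ‖∫ θ in (0:ℝ)..1, 2 * θ ^ N * g (θ ^ 2 * s)‖ ≤ (2 * M) * |(1:ℝ) - 0| := by
    apply intervalIntegral.norm_integral_le_of_norm_le_const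
    intro θ hθ
    rw [uIoc_of_le zero_le_one] at hθ
    have h1 : θ ^ N ≤ 1 := pow_le_one₀ hθ.1.le hθ.2
    have h0 : 0 ≤ θ ^ N := pow_nonneg hθ.1.le _
    rw [Real.norm_eq_abs, abs_mul, abs_mul, abs_two, abs_of_nonneg h0]
    have h2 := hM (θ ^ 2 * s)
    have h3 := abs_nonneg (g (θ ^ 2 * s))
    have h4 : θ ^ N * |g (θ ^ 2 * s)| ≤ 1 * M :=
      mul_le_mul h1 h2 h3 zero_le_one
    nlinarith
  simpa [Real.norm_eq_abs] using h

theorem exp_integral (lam a : ℝ) :
    ∫ θ in (0:ℝ)..1, (2 * θ * a * lam) * Real.exp (lam * (θ ^ 2 * a)) =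
      Real.exp (lam * a) - 1 := by
  have hd : ∀ θ ∈ uIcc (0:ℝ) 1, HasDerivAt (fun θ : ℝ => Real.exp (lam * (θ ^ 2 * a)))
      ((2 * θ * a * lam) * Real.exp (lam * (θ ^ 2 * a))) θ := by
    intro θ _
    have h1 : HasDerivAt (fun θ : ℝ => lam * (θ ^ 2 * a)) (2 * θ * a * lam) θ := by
      have h2 := (((hasDerivAt_pow 2 θ).mul_const a).const_mul lam)
      have h3 : lam * ((2:ℕ) * θ ^ (2 - 1) * a) = 2 * θ * a * lam := by
        push_cast
        ring
      rw [h3] at h2
      exact h2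
    have h2 := h1.exp
    rw [mul_comm] at h2
    exact h2
  have hi : IntervalIntegrable (fun θ : ℝ => (2 * θ * a * lam) * Real.exp (lam * (θ ^ 2 * a)))
      volume 0 1 := by
    apply Continuous.intervalIntegrable
    fun_prop
  rw [integral_eq_sub_of_hasDerivAt hd hi]
  simp

theorem ker_diff_le {g1 g2 : ℝ → ℝ} (hg1 : Continuous g1) (hg2 : Continuous g2)
    {A lam : ℝ} (hlam : 0 < lam)
    (h : ∀ t, |g1 t - g2 t| ≤ A * Real.exp (lam * |t|)) {N : ℕ} (hN : 1 ≤ N) (s : ℝ) :
    |s| * |Ker N g1 s - Ker N g2 s| ≤ A / lam * (Real.exp (lam * |s|) - 1) := by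
  have hA : 0 ≤ A := by
    have h0 := h 0
    simp only [abs_zero, mul_zero, Real.exp_zero, mul_one] at h0
    exact (abs_nonneg _).trans h0
  have hi1 : IntervalIntegrable (fun θ : ℝ => 2 * θ ^ N * g1 (θ ^ 2 * s)) volume 0 1 :=
    Continuous.intervalIntegrable (by fun_prop) _ _
  have hi2 : IntervalIntegrable (fun θ : ℝ => 2 * θ ^ N * g2 (θ ^ 2 * s)) volume 0 1 :=
    Continuous.intervalIntegrable (by fun_prop) _ _
  have hb : ‖∫ θ in (0:ℝ)..1, (2 * θ ^ N * g1 (θ ^ 2 * s) - 2 * θ ^ N * g2 (θ ^ 2 * s))‖ ≤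
      ∫ θ in (0:ℝ)..1, 2 * θ * (A * Real.exp (lam * (θ ^ 2 * |s|))) := by
    apply intervalIntegral.norm_integral_le_of_norm_le zero_le_one
    · apply Filter.Eventually.of_forall
      intro θ hθ
      have h0 : 0 ≤ θ := hθ.1.le
      have h1 : θ ^ N ≤ θ := by
        calc θ ^ N ≤ θ ^ 1 := pow_le_pow_of_le_one h0 hθ.2 hN
          _ = θ := pow_one θ
      have h2 : 0 ≤ θ ^ N := pow_nonneg h0 _
      have h3 := h (θ ^ 2 * s)
      have h4 : |θ ^ 2 * s| = θ ^ 2 * |s| := by
        rw [abs_mul, abs_of_nonneg (sq_nonneg θ)]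
      rw [h4] at h3
      rw [Real.norm_eq_abs, ← mul_sub, abs_mul, abs_mul, abs_two, abs_of_nonneg h2]
      exact mul_le_mul (by linarith) h3 (abs_nonneg _) (by linarith)
    · apply Continuous.intervalIntegrable
      fun_prop
  have e1 : Ker N g1 s - Ker N g2 s =
      ∫ θ in (0:ℝ)..1, (2 * θ ^ N * g1 (θ ^ 2 * s) - 2 * θ ^ N * g2 (θ ^ 2 * s)) := by
    unfold Ker
    rw [intervalIntegral.integral_sub hi1 hi2]
  have e2 : |s| * ∫ θ in (0:ℝ)..1, 2 * θ * (A * Real.exp (lam * (θ ^ 2 * |s|))) =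
      A / lam * (Real.exp (lam * |s|) - 1) := by
    rw [← exp_integral lam |s|, ← intervalIntegral.integral_const_mul,
      ← intervalIntegral.integral_const_mul]
    apply intervalIntegral.integral_congr
    intro θ _
    simp only
    field_simp
  rw [e1, ← e2]
  exact mul_le_mul_of_nonneg_left (by simpa [Real.norm_eq_abs] using hb) (abs_nonneg _)

theorem abs_mul_exp_le {lam : ℝ} (hlam : 0 < lam) (s : ℝ) :
    Real.exp (-(lam * |s|)) * |s| ≤ 1 / lam := by
  have h := Real.add_one_le_exp (lam * |s|)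
  rw [Real.exp_neg, ← div_eq_inv_mul, div_le_div_iff₀ (Real.exp_pos _) hlam]
  nlinarith

theorem moduleA (F : (Fin 3 → ℝ) → (Fin 3 → ℝ)) (M : ℝ) (L : NNReal)
    (hM : ∀ v i, |F v i| ≤ M) (hL : LipschitzWith L F) (v0 : Fin 3 → ℝ) (N : Fin 3 → ℕ)
    (hN : ∀ i, 1 ≤ N i) :
    ∃ v : ℝ → (Fin 3 → ℝ), Continuous v ∧
      ∀ s i, v s i = v0 i + s * Ker (N i) (fun t => F (v t) i) s := by
  set lam : ℝ := 2 * (L : ℝ) + 1 with hlamdef
  have hL0 : (0:ℝ) ≤ L := L.2
  have hlam : 0 < lam := by positivity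
  have hM0 : 0 ≤ M := (abs_nonneg _).trans (hM 0 0)
  -- the function associated with a weighted unknown
  let V : (BoundedContinuousFunction ℝ (Fin 3 → ℝ)) → ℝ → (Fin 3 → ℝ) :=
    fun w t => v0 + Real.exp (lam * |t|) • w t
  have hV : ∀ w, Continuous (V w) := by
    intro w
    have := w.continuous
    fun_prop
  have hFV : ∀ w i, Continuous (fun t => F (V w t) i) := by
    intro w i
    exact (continuous_apply i).comp (hL.continuous.comp (hV w))
  let T0 : (BoundedContinuousFunction ℝ (Fin 3 → ℝ)) → ℝ → (Fin 3 → ℝ) :=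
    fun w s i => Real.exp (-(lam * |s|)) * (s * Ker (N i) (fun t => F (V w t) i) s)
  have hT0c : ∀ w, Continuous (T0 w) := by
    intro w
    apply continuous_pi
    intro i
    have := ker_continuous (hFV w i) (N i)
    fun_prop
  have hT0b : ∀ w s, ‖T0 w s‖ ≤ 1 / lam * (2 * M) := by
    intro w s
    rw [pi_norm_le_iff_of_nonneg (by positivity)]
    intro i
    rw [Real.norm_eq_abs, abs_mul, abs_mul, abs_of_pos (Real.exp_pos _), ← mul_assoc]
    exact mul_le_mul (abs_mul_exp_le hlam s) (ker_abs_le (fun t => hM _ i) _ _)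
      (abs_nonneg _) (by positivity)
  let T : (BoundedContinuousFunction ℝ (Fin 3 → ℝ)) → (BoundedContinuousFunction ℝ (Fin 3 → ℝ)) :=
    fun w => BoundedContinuousFunction.ofNormedAddCommGroup (T0 w) (hT0c w) _ (hT0b w)
  have hTapp : ∀ w s, T w s = T0 w s := fun w s => rfl
  -- contraction
  have hcon : ContractingWith (1/2 : NNReal) T := by
    refine ⟨by
      rw [← NNReal.coe_lt_coe]
      norm_num, ?_⟩
    apply LipschitzWith.of_dist_le_mul
    intro w1 w2
    have hd0 : 0 ≤ dist w1 w2 := dist_nonneg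
    have hc : ((1/2 : NNReal) : ℝ) = 1/2 := by norm_num
    rw [hc, BoundedContinuousFunction.dist_le (by positivity)]
    intro s
    rw [hTapp, hTapp, dist_pi_le_iff (by positivity)]
    intro i
    have hlip : ∀ t, |F (V w1 t) i - F (V w2 t) i| ≤
        ((L : ℝ) * dist w1 w2) * Real.exp (lam * |t|) := by
      intro t
      have h1 : dist (F (V w1 t)) (F (V w2 t)) ≤ L * dist (V w1 t) (V w2 t) :=
        hL.dist_le_mul _ _
      have h2 : dist (V w1 t) (V w2 t) ≤ Real.exp (lam * |t|) * dist w1 w2 := by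
        have h3 : V w1 t - V w2 t = Real.exp (lam * |t|) • (w1 t - w2 t) := by
          simp only [V]
          rw [smul_sub]
          abel
        rw [dist_eq_norm, h3, norm_smul, Real.norm_eq_abs, abs_of_pos (Real.exp_pos _),
          ← dist_eq_norm]
        exact mul_le_mul_of_nonneg_left (BoundedContinuousFunction.dist_coe_le_dist t)
          (Real.exp_pos _).le
      have h4 : dist (F (V w1 t) i) (F (V w2 t) i) ≤ dist (F (V w1 t)) (F (V w2 t)) :=
        dist_le_pi_dist _ _ i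
      rw [Real.dist_eq] at h4
      calc |F (V w1 t) i - F (V w2 t) i| ≤ L * dist (V w1 t) (V w2 t) := h4.trans h1
        _ ≤ L * (Real.exp (lam * |t|) * dist w1 w2) := mul_le_mul_of_nonneg_left h2 hL0
        _ = _ := by ring
    have hk := ker_diff_le (hFV w1 i) (hFV w2 i) hlam hlip (hN i) s
    have e1 : dist (T0 w1 s i) (T0 w2 s i) = Real.exp (-(lam * |s|)) *
        (|s| * |Ker (N i) (fun t => F (V w1 t) i) s - Ker (N i) (fun t => F (V w2 t) i) s|) := by
      simp only [T0]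
      rw [Real.dist_eq, ← mul_sub, ← mul_sub, abs_mul, abs_mul, abs_of_pos (Real.exp_pos _)]
    rw [e1]
    have hE : Real.exp (-(lam * |s|)) * Real.exp (lam * |s|) = 1 := by
      rw [← Real.exp_add]
      simp
    have hq : (L : ℝ) / lam ≤ 1 / 2 := by
      rw [div_le_div_iff₀ hlam (by norm_num)]
      linarith
    calc Real.exp (-(lam * |s|)) *
        (|s| * |Ker (N i) (fun t => F (V w1 t) i) s - Ker (N i) (fun t => F (V w2 t) i) s|)
        ≤ Real.exp (-(lam * |s|)) *
          (((L : ℝ) * dist w1 w2) / lam * (Real.exp (lam * |s|) - 1)) :=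
          mul_le_mul_of_nonneg_left hk (Real.exp_pos _).le
      _ = (L : ℝ) / lam * dist w1 w2 * (1 - Real.exp (-(lam * |s|))) := by
          linear_combination ((L : ℝ) / lam * dist w1 w2) * hE
      _ ≤ (L : ℝ) / lam * dist w1 w2 * 1 := by
          apply mul_le_mul_of_nonneg_left _ (by positivity)
          linarith [Real.exp_pos (-(lam * |s|))]
      _ ≤ 1 / 2 * dist w1 w2 := by
          rw [mul_one]
          exact mul_le_mul_of_nonneg_right hq hd0
  -- the fixed point
  let w := ContractingWith.fixedPoint T hcon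
  have hw : T w = w := hcon.fixedPoint_isFixedPt
  refine ⟨V w, hV w, ?_⟩
  intro s i
  have h1 : w s = T0 w s := by
    rw [← hTapp, hw]
  have hE : Real.exp (lam * |s|) * Real.exp (-(lam * |s|)) = 1 := by
    rw [← Real.exp_add]
    simp
  have h2 : V w s i = v0 i + Real.exp (lam * |s|) * w s i := rfl
  rw [h2, h1]
  have h3 : T0 w s i = Real.exp (-(lam * |s|)) * (s * Ker (N i) (fun t => F (V w t) i) s) := rfl
  rw [h3, ← mul_assoc, hE, one_mul]

end P252
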