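import Vale.Agent.P252.OdeBounds
import Vale.Agent.P252.Volterra

open Set

namespace P252

noncomputable def v00 (m : ℝ) : Fin 3 → ℝ := ![0, 1, yz m]
def NN (m : ℕ) : Fin 3 → ℕ := ![1, 1, m + 3]

theorem exists_traj (m : ℕ) (hm : 9 ≤ m) :
    ∃ (v : ℝ → Fin 3 → ℝ) (y' : ℝ → ℝ), Traj (m : ℝ) v y' ∧
      (∀ s i, v s i = v00 m i + s * Ker (NN m i) (fun t => Fc (m:ℝ) (v t) i) s) := by
  have hmR : (9:ℝ) ≤ (m:ℝ) := by exact_mod_cast hm
  obtain ⟨L, hL⟩ := Fc_lipschitz (m:ℝ) hmR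
  obtain ⟨M, hM⟩ := Fc_bounded (m:ℝ) hmR
  have hN : ∀ i, 1 ≤ NN m i := by
    intro i; fin_cases i <;> simp [NN]
  obtain ⟨v, hv, hfix⟩ := moduleA (Fc (m:ℝ)) M L hM hL (v00 m) (NN m) hN
  have hFc : Continuous (Fc (m:ℝ)) := hL.continuous
  have hg : ∀ i, Continuous fun t => Fc (m:ℝ) (v t) i := fun i =>
    (continuous_apply i).comp (hFc.comp hv)
  have hder : ∀ i s, HasDerivAt (fun t => v t i)
      (Fc (m:ℝ) (v s) i - ((NN m i : ℝ) - 1) / 2 * Ker (NN m i) (fun t => Fc (m:ℝ) (v t) i) s) s := by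
    intro i s
    have h1 := (moduleB_deriv (NN m i) (hN i) _ (hg i) s).const_add (v00 m i)
    have h2 : (fun t => v t i) = fun t => v00 m i + t * Ker (NN m i) (fun t => Fc (m:ℝ) (v t) i) t := by
      funext t; exact hfix t i
    rw [h2]; exact h1
  refine ⟨v, fun s => Fc (m:ℝ) (v s) 2 - ((NN m 2 : ℝ) - 1) / 2 *
    Ker (NN m 2) (fun t => Fc (m:ℝ) (v t) 2) s, ?_, hfix⟩
  refine ⟨hv, ?_, ?_, ?_, ?_, ?_, ?_, ?_⟩
  · rw [hfix 0 0]; simp [v00]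
  · rw [hfix 0 1]; simp [v00]
  · rw [hfix 0 2]; simp [v00]
  · intro s hs
    refine (hder 0 s).congr_deriv ?_
    simp [NN, Fc, cl_eq hs, F0]
  · intro s hs
    refine (hder 1 s).congr_deriv ?_
    simp [NN, Fc, cl_eq hs, F0]
  · intro s _
    exact hder 2 s
  · intro s hs
    have h1 := hfix s 2
    have h2 : Fc (m:ℝ) (v s) 2 = v s 1 * Psi m (v s 0) (v s 2) / 2 := by
      simp [Fc, cl_eq hs, F0]
    have h3 : v00 (m:ℝ) 2 = yz m := rfl
    have h4 : ((NN m 2 : ℕ) : ℝ) = m + 3 := by simp [NN]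
    simp only [h2, h4]
    rw [h3] at h1
    linear_combination ((m:ℝ) + 2) * h1

theorem moduleC' (m : ℕ) (hm : 9 ≤ m) :
    ∃ (δ : ℝ) (E y : ℝ → ℝ), 0 < δ ∧
      ContDiffOn ℝ (⊤ : ℕ∞) E (Ioi (-δ)) ∧ ContDiffOn ℝ (⊤ : ℕ∞) y (Ioi (-δ)) ∧
      E 0 = 1 ∧
      (∀ s, -δ < s → 0 < E s ∧ 0 < (m:ℝ) + 2 * (s / E s) ∧ 0 < 1 + s / E s * y s) ∧
      (∀ s, -δ < s → HasDerivAt E ((1 - y s) / 2) s) ∧
      (∀ s, -δ < s → ∃ y' : ℝ, HasDerivAt y y' s ∧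
        2 * s * y' = (1 + s / E s * y s) *
            (2 * (s / E s) + 2 * m + 3 - ((m:ℝ) ^ 2 - 6 * (s / E s)) * y s) /
              (2 * (s / E s) + m)
          - y s * (2 + s / E s * (y s - 1))) := by
  have hmR : (9:ℝ) ≤ (m:ℝ) := by exact_mod_cast hm
  obtain ⟨v, y', hT, hfix⟩ := exists_traj m hm
  have hpos := hT.all_mem hmR
  -- neighbourhood of 0
  have h0 : v 0 ∈ Wg := hpos 0 le_rfl
  obtain ⟨δ, hδ, hball⟩ := Metric.isOpen_iff.1 (isOpen_Wg.preimage hT.cont) 0 h0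
  have hall : ∀ s, -δ < s → v s ∈ Wg := by
    intro s hs
    rcases le_or_gt 0 s with h | h
    · exact hpos s h
    · refine hball ?_
      rw [Metric.mem_ball, Real.dist_eq, sub_zero, abs_of_neg h]
      linarith
  have hbox : ∀ s, -δ < s → v s ∈ Icc lo hi := fun s hs => (Wg_sub_Wc (hall s hs)).1
  have ha : ∀ s, -δ < s → v s 0 = s * v s 1 := by
    intro s hs
    rcases le_or_gt 0 s with h | h
    · exact hT.a_eq s (fun t ht => hbox t (by linarith [ht.1])) s ⟨h, le_rfl⟩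
    · exact hT.a_eq_neg (-s) (fun t ht => hbox t (by linarith [ht.1])) s ⟨by linarith, h.le⟩
  have hsm : ContDiffOn ℝ (⊤ : ℕ∞) v (Ioi (-δ)) := by
    refine moduleB_smooth (Fc (m:ℝ)) ?_ (v00 m) (NN m) ?_ v hT.cont hfix δ hδ Wg isOpen_Wg hall ?_
    · obtain ⟨L, hL⟩ := Fc_lipschitz (m:ℝ) hmR
      exact hL.continuous
    · intro i; fin_cases i <;> simp [NN]
    · refine ((F0_smooth (m:ℝ) hmR).mono ?_).congr ?_
      · intro w hw
        exact box_sub (Wg_sub_Wc hw).1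
      · intro w hw
        simp only [Fc, cl_eq (Wg_sub_Wc hw).1]
  have he : ∀ s, -δ < s → 0 < v s 1 := fun s hs => (hall s hs).2.1.1
  have hsE : ∀ s, -δ < s → s / (v s 1)⁻¹ = v s 0 := by
    intro s hs
    rw [ha s hs, div_inv_eq_mul]
  refine ⟨δ, fun s => (v s 1)⁻¹, fun s => v s 2, hδ, ?_, ?_, ?_, ?_, ?_, ?_⟩
  · have h1 : ContDiffOn ℝ (⊤ : ℕ∞) (fun s => v s 1) (Ioi (-δ)) :=
      (contDiff_apply ℝ ℝ (1 : Fin 3)).comp_contDiffOn hsm
    exact h1.inv (fun s hs => (he s hs).ne')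
  · exact (contDiff_apply ℝ ℝ (2 : Fin 3)).comp_contDiffOn hsm
  · simp [hT.z1]
  · intro s hs
    simp only
    rw [hsE s hs]
    have h1 := hall s hs
    refine ⟨inv_pos.2 (he s hs), ?_, h1.2.2.2⟩
    linarith [h1.1.1]
  · intro s hs
    have h1 := (hT.d1 s (hbox s hs)).inv (he s hs).ne'
    refine h1.congr_deriv ?_
    have := (he s hs).ne'
    field_simp
  · intro s hs
    refine ⟨y' s, hT.d2 s (hbox s hs), ?_⟩
    have h1 := hT.y_ode hmR s (hbox s hs) (ha s hs)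
    simp only
    rw [hsE s hs, h1]
    rfl

end P252
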