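import Vale.Agent.P252.Defs

open Set

namespace P252

/-- The regular part `Ψ`. -/
noncomputable def Psi (m a y : ℝ) : ℝ :=
  (m * (2 + 6 * y) + m * y * ((2 * m + 3 - m ^ 2 * y) + 2 * a + 6 * a * y)
    - 2 * (2 * m + 3 - m ^ 2 * y)) / (m * (2 * a + m)) - y * (y - 1)

/-- initial value of `y` -/
noncomputable def yz (m : ℝ) : ℝ := (2 * m + 3) / (m * (m + 2))

theorem psi_identity (m a y : ℝ) (hm : m ≠ 0) (hm2 : m + 2 ≠ 0) (ha : 2 * a + m ≠ 0) :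
    -(m + 2) * (y - yz m) + a * Psi m a y =
      (1 + a * y) * (2 * a + 2 * m + 3 - (m ^ 2 - 6 * a) * y) / (2 * a + m)
        - y * (2 + a * (y - 1)) := by
  unfold Psi yz
  field_simp
  ring

/-- The smooth vector field. -/
noncomputable def F0 (m : ℝ) (v : Fin 3 → ℝ) : Fin 3 → ℝ :=
  ![v 1 * (2 + v 0 * (v 2 - 1)) / 2, -(v 1 ^ 2 * (1 - v 2)) / 2, v 1 * Psi m (v 0) (v 2) / 2]

def lo : Fin 3 → ℝ := ![-1, -1, -1]
def hi : Fin 3 → ℝ := ![5, 2, 1]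

/-- coordinatewise clamping -/
noncomputable def cl (v : Fin 3 → ℝ) : Fin 3 → ℝ := fun i => max (lo i) (min (hi i) (v i))

theorem lo_le_hi (i : Fin 3) : lo i ≤ hi i := by
  fin_cases i <;> norm_num [lo, hi]

theorem cl_mem (v : Fin 3 → ℝ) : cl v ∈ Icc lo hi :=
  ⟨fun _ => le_max_left _ _, fun i => max_le (lo_le_hi i) (min_le_left _ _)⟩

theorem cl_eq {v : Fin 3 → ℝ} (hv : v ∈ Icc lo hi) : cl v = v := by
  funext i
  have h1 := hv.1 i
  have h2 := hv.2 i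
  simp only [cl, min_eq_right h2, max_eq_right h1]

theorem cl_lipschitz : LipschitzWith 1 cl := by
  refine LipschitzWith.of_dist_le_mul fun v w => ?_
  rw [NNReal.coe_one, one_mul, dist_pi_le_iff dist_nonneg]
  intro i
  refine le_trans ?_ (dist_le_pi_dist v w i)
  simp only [cl, Real.dist_eq]
  have h1 := abs_max_sub_max_le_max (lo i) (min (hi i) (v i)) (lo i) (min (hi i) (w i))
  have h2 := abs_min_sub_min_le_max (hi i) (v i) (hi i) (w i)
  simp only [sub_self, abs_zero] at h1 h2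
  rw [max_eq_right (abs_nonneg (min (hi i) (v i) - min (hi i) (w i)))] at h1
  rw [max_eq_right (abs_nonneg (v i - w i))] at h2
  exact h1.trans h2

/-- open half space where `F0` is smooth -/
def Osm : Set (Fin 3 → ℝ) := {v | -4 < v 0}

theorem isOpen_Osm : IsOpen Osm := isOpen_lt continuous_const (continuous_apply 0)

theorem F0_smooth (m : ℝ) (hm : 9 ≤ m) : ContDiffOn ℝ (⊤ : ℕ∞) (F0 m) Osm := by
  have h0 : ContDiffOn ℝ (⊤ : ℕ∞) (fun v : Fin 3 → ℝ => v 0) Osm :=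
    (contDiff_apply ℝ ℝ (0 : Fin 3)).contDiffOn
  have h1 : ContDiffOn ℝ (⊤ : ℕ∞) (fun v : Fin 3 → ℝ => v 1) Osm :=
    (contDiff_apply ℝ ℝ (1 : Fin 3)).contDiffOn
  have h2 : ContDiffOn ℝ (⊤ : ℕ∞) (fun v : Fin 3 → ℝ => v 2) Osm :=
    (contDiff_apply ℝ ℝ (2 : Fin 3)).contDiffOn
  have hden : ∀ v ∈ Osm, m * (2 * v 0 + m) ≠ 0 := by
    intro v hv
    have : (-4 : ℝ) < v 0 := hv
    have : 0 < 2 * v 0 + m := by linarith
    positivity
  rw [contDiffOn_pi]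
  intro i
  fin_cases i
  · simp only [F0]
    change ContDiffOn ℝ (⊤ : ℕ∞) (fun v : Fin 3 → ℝ => v 1 * (2 + v 0 * (v 2 - 1)) / 2) Osm
    fun_prop
  · change ContDiffOn ℝ (⊤ : ℕ∞) (fun v : Fin 3 → ℝ => -(v 1 ^ 2 * (1 - v 2)) / 2) Osm
    fun_prop
  · change ContDiffOn ℝ (⊤ : ℕ∞) (fun v : Fin 3 → ℝ => v 1 * Psi m (v 0) (v 2) / 2) Osm
    unfold Psi
    have hN : ContDiffOn ℝ (⊤ : ℕ∞) (fun v : Fin 3 → ℝ =>
        (m * (2 + 6 * v 2) + m * v 2 * ((2 * m + 3 - m ^ 2 * v 2) + 2 * v 0 + 6 * v 0 * v 2)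
          - 2 * (2 * m + 3 - m ^ 2 * v 2))) Osm := by fun_prop
    have hD : ContDiffOn ℝ (⊤ : ℕ∞) (fun v : Fin 3 → ℝ => m * (2 * v 0 + m)) Osm := by fun_prop
    have hQ := hN.div hD hden
    have hR : ContDiffOn ℝ (⊤ : ℕ∞) (fun v : Fin 3 → ℝ => v 2 * (v 2 - 1)) Osm := by fun_prop
    exact (h1.mul (hQ.sub hR)).div_const 2

theorem box_sub : Icc lo hi ⊆ Osm := by
  intro v hv
  have := hv.1 0
  simp only [lo, Matrix.cons_val_zero] at this
  change -4 < v 0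
  linarith

/-- The clamped vector field. -/
noncomputable def Fc (m : ℝ) (v : Fin 3 → ℝ) : Fin 3 → ℝ := F0 m (cl v)

theorem Fc_lipschitz (m : ℝ) (hm : 9 ≤ m) : ∃ L : NNReal, LipschitzWith L (Fc m) := by
  have hloc : LocallyLipschitzOn (Icc lo hi) (F0 m) := by
    intro x hx
    have hxO := box_sub hx
    have hc : ContDiffAt ℝ 1 (F0 m) x :=
      ((F0_smooth m hm).contDiffAt (isOpen_Osm.mem_nhds hxO)).of_le (by norm_cast)
    obtain ⟨K, t, ht, hL⟩ := hc.exists_lipschitzOnWith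
    exact ⟨K, t, mem_nhdsWithin_of_mem_nhds ht, hL⟩
  obtain ⟨K, hK⟩ := hloc.exists_lipschitzOnWith_of_compact isCompact_Icc
  refine ⟨K * 1, ?_⟩
  have : LipschitzOnWith (K * 1) (F0 m ∘ cl) univ :=
    hK.comp (cl_lipschitz.lipschitzOnWith) (fun v _ => cl_mem v)
  exact lipschitzOnWith_univ.1 this

theorem Fc_bounded (m : ℝ) (hm : 9 ≤ m) : ∃ M : ℝ, ∀ v i, |Fc m v i| ≤ M := by
  have hc : ContinuousOn (F0 m) (Icc lo hi) := (F0_smooth m hm).continuousOn.mono box_sub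
  obtain ⟨M, hM⟩ := (isCompact_Icc.image_of_continuousOn hc).isBounded.exists_norm_le
  refine ⟨M, fun v i => ?_⟩
  have h1 := hM (F0 m (cl v)) (mem_image_of_mem _ (cl_mem v))
  exact (norm_le_pi_norm (F0 m (cl v)) i).trans h1

end P252
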