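import Vale.Agent.P252.OdeTraj

open Set

namespace P252

/-- the open good region -/
def Wg : Set (Fin 3 → ℝ) :=
  {w | (-1 < w 0 ∧ w 0 < 5) ∧ (0 < w 1 ∧ w 1 < 2) ∧ (-1 < w 2 ∧ w 2 < 1) ∧ 0 < bb w}

theorem continuous_bb : Continuous bb := by unfold bb; fun_prop
theorem continuous_pp : Continuous pp := by unfold pp; fun_prop
theorem continuous_qq (m : ℝ) : Continuous (qq m) := by unfold qq; fun_prop

theorem isOpen_Wg : IsOpen Wg := by
  have e0 : Continuous fun w : Fin 3 → ℝ => w 0 := continuous_apply 0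
  have e1 : Continuous fun w : Fin 3 → ℝ => w 1 := continuous_apply 1
  have e2 : Continuous fun w : Fin 3 → ℝ => w 2 := continuous_apply 2
  exact (((isOpen_lt continuous_const e0).inter (isOpen_lt e0 continuous_const))).inter
    (((isOpen_lt continuous_const e1).inter (isOpen_lt e1 continuous_const)).inter
      (((isOpen_lt continuous_const e2).inter (isOpen_lt e2 continuous_const)).inter
        (isOpen_lt continuous_const continuous_bb)))

/-- closed version -/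
def Wc : Set (Fin 3 → ℝ) := {w | w ∈ Icc lo hi ∧ 0 ≤ w 1 ∧ 0 ≤ bb w}

theorem isClosed_Wc : IsClosed Wc := by
  have e1 : Continuous fun w : Fin 3 → ℝ => w 1 := continuous_apply 1
  exact isClosed_Icc.inter ((isClosed_le continuous_const e1).inter
    (isClosed_le continuous_const continuous_bb))

theorem Wg_sub_Wc : Wg ⊆ Wc := by
  rintro w ⟨⟨a0, b0⟩, ⟨a1, b1⟩, ⟨a2, b2⟩, hb⟩
  exact ⟨(box_iff w).2 ⟨⟨a0.le, b0.le⟩, ⟨by linarith, b1.le⟩, ⟨a2.le, b2.le⟩⟩, a1.le, hb.le⟩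

variable {m : ℝ} {v : ℝ → Fin 3 → ℝ} {y' : ℝ → ℝ}

theorem Traj.pq_pos (h : Traj m v y') (hm : 9 ≤ m) (T : ℝ) (hT : 0 < T)
    (hb : ∀ t ∈ Icc 0 T, v t ∈ Wc) :
    ∀ t ∈ Icc 0 T, 0 < pp (v t) ∧ 0 < qq m (v t) ∧ 1 ≤ bb (v t) := by
  have hbox : ∀ t ∈ Icc 0 T, v t ∈ Icc lo hi := fun t ht => (hb t ht).1
  have ha := h.a_eq T hbox
  have hp0 : pp (v 0) = 2 := by simp [pp, h.z0]
  have hq0 : 0 < qq m (v 0) := by
    unfold qq
    rw [h.z0, h.z2]
    unfold yz
    have h1 : 0 < m * (m + 2) := by positivity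
    have h2 : (2 * 0 + 2 * m + 3 - (m ^ 2 - 6 * 0) * ((2 * m + 3) / (m * (m + 2))))
        = 2 * (2 * m + 3) / (m + 2) := by field_simp; ring
    rw [h2]; positivity
  have hb0 : bb (v 0) = 1 := by simp [bb, h.z0]
  -- monotonicity of b on any initial interval where q ≥ 0
  have hbmono : ∀ t ∈ Icc 0 T, (∀ r ∈ Ioo 0 t, 0 < qq m (v r)) → 1 ≤ bb (v t) := by
    intro t ht hq
    rw [← hb0]
    refine ge_of_deriv_nonneg (fun r => bb (v r))
      (fun r => v r 1 / 2 * (bb (v r) * qq m (v r) / (2 * v r 0 + m))) 0 t ht.1 ?_ ?_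
    · intro r hr
      have hr' : r ∈ Icc 0 T := ⟨hr.1, hr.2.trans ht.2⟩
      exact h.db hm r (hbox r hr') (ha r hr')
    · intro r hr
      have hr' : r ∈ Icc 0 T := ⟨hr.1.le, hr.2.le.trans ht.2⟩
      obtain ⟨⟨a0, b0⟩, ⟨a1, b1⟩, ⟨a2, b2⟩⟩ := (box_iff _).1 (hbox r hr')
      have h1 := (hb r hr').2.1
      have h2 := (hb r hr').2.2
      have h3 := hq r hr
      have h4 : 0 < 2 * v r 0 + m := by linarith
      positivity
  -- positivity of p and q
  have key : ∀ t ∈ Icc 0 T, 0 < pp (v t) ∧ 0 < qq m (v t) := by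
    by_contra hcon
    push Not at hcon
    obtain ⟨tb, htb, hbad⟩ := hcon
    let S : Set ℝ := Icc 0 T ∩ {t | pp (v t) ≤ 0 ∨ qq m (v t) ≤ 0}
    have hSc : IsClosed S := by
      refine isClosed_Icc.inter ?_
      exact (isClosed_le (continuous_pp.comp h.cont) continuous_const).union
        (isClosed_le ((continuous_qq m).comp h.cont) continuous_const)
    have hSne : S.Nonempty := by
      refine ⟨tb, htb, ?_⟩
      by_cases hc : 0 < pp (v tb)
      · exact Or.inr (hbad hc)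
      · exact Or.inl (not_lt.1 hc)
    have hSbd : BddBelow S := ⟨0, fun t ht => ht.1.1⟩
    obtain ⟨⟨ht10, ht1T⟩, ht1bad⟩ := hSc.csInf_mem hSne hSbd
    have hlt : ∀ t, 0 ≤ t → t < sInf S → 0 < pp (v t) ∧ 0 < qq m (v t) := by
      intro t ht0 ht1
      by_contra hc
      have : t ∈ S := by
        refine ⟨⟨ht0, ht1.le.trans ht1T⟩, ?_⟩
        by_cases hc2 : 0 < pp (v t)
        · right
          by_contra hc3
          exact hc ⟨hc2, not_le.1 hc3⟩
        · exact Or.inl (not_lt.1 hc2)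
      exact absurd (csInf_le hSbd this) (not_le.2 ht1)
    generalize sInf S = t1 at ht10 ht1T ht1bad hlt
    have ht1pos : 0 < t1 := by
      rcases ht10.eq_or_lt with h0 | h0
      · exfalso
        rw [← h0] at ht1bad
        rcases ht1bad with hh | hh
        · rw [hp0] at hh; norm_num at hh
        · exact absurd hq0 (not_lt.2 hh)
      · exact h0
    have hb1 : ∀ t ∈ Icc 0 t1, 1 ≤ bb (v t) := fun t ht =>
      hbmono t ⟨ht.1, ht.2.trans ht1T⟩ (fun r hr => (hlt r hr.1.le (hr.2.trans_le ht.2)).2)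
    have hpp : 0 < pp (v t1) := by
      refine pos_persist (fun r => pp (v r))
        (fun r => v r 1 / 2 * (bb (v r) * qq m (v r) / (2 * v r 0 + m) - pp (v r))) 0 t1 1
        ht10 ?_ ?_ ?_
      · intro r hr
        have hr' : r ∈ Icc 0 T := ⟨hr.1, hr.2.trans ht1T⟩
        exact h.dp hm r (hbox r hr') (ha r hr')
      · intro r hr
        have hr' : r ∈ Icc 0 T := ⟨hr.1, hr.2.le.trans ht1T⟩
        obtain ⟨⟨a0, b0⟩, ⟨a1, b1⟩, ⟨a2, b2⟩⟩ := (box_iff _).1 (hbox r hr')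
        have h1 := (hb r hr').2.1
        have h2 := hb1 r ⟨hr.1, hr.2.le⟩
        have h3 := hlt r hr.1 hr.2
        have h4 : 0 < 2 * v r 0 + m := by linarith
        have h5 : 0 ≤ bb (v r) * qq m (v r) / (2 * v r 0 + m) :=
          div_nonneg (mul_nonneg (by linarith) h3.2.le) h4.le
        have h6 : 0 ≤ v r 1 / 2 * (bb (v r) * qq m (v r) / (2 * v r 0 + m)) :=
          mul_nonneg (by linarith) h5
        have h7 : v r 1 / 2 * pp (v r) ≤ 1 * pp (v r) :=
          mul_le_mul_of_nonneg_right (by linarith) h3.1.le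
        linarith [mul_sub (v r 1 / 2) (bb (v r) * qq m (v r) / (2 * v r 0 + m)) (pp (v r))]
      · show 0 < pp (v 0)
        rw [hp0]; norm_num
    have hqq : 0 < qq m (v t1) := by
      refine pos_persist (fun r => qq m (v r))
        (fun r => ((4 * v r 0 + 2 * m - 3 + 6 * bb (v r)) * pp (v r)
          - ((m ^ 2 - 6 * v r 0) * bb (v r) / (2 * v r 0 + m) + pp (v r)) * qq m (v r))
          / (2 * r)) (t1 / 2) t1 ((6 * m + 2) / t1) (by linarith) ?_ ?_ ?_
      · intro r hr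
        have hr' : r ∈ Icc 0 T := ⟨by linarith [hr.1], hr.2.trans ht1T⟩
        exact h.dq hm r (by linarith [hr.1]) (hbox r hr') (ha r hr')
      · intro r hr
        have hr0 : 0 < r := by linarith [hr.1]
        have hr' : r ∈ Icc 0 T := ⟨hr0.le, hr.2.le.trans ht1T⟩
        obtain ⟨⟨a0, b0⟩, ⟨a1, b1⟩, ⟨a2, b2⟩⟩ := (box_iff _).1 (hbox r hr')
        have h1 := (hb r hr').2.1
        have h2 := hb1 r ⟨hr0.le, hr.2.le⟩
        have h3 := hlt r hr0.le hr.2
        have hav : 0 ≤ v r 0 := by rw [ha r hr']; exact mul_nonneg hr0.le h1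
        have h4 : 0 < 2 * v r 0 + m := by linarith
        have hb6 : bb (v r) ≤ 6 := by unfold bb; nlinarith
        have hp2 : pp (v r) ≤ 2 := by unfold pp; nlinarith
        have hmm : 0 ≤ m ^ 2 - 6 * v r 0 := by nlinarith
        have h5 : (m ^ 2 - 6 * v r 0) * bb (v r) / (2 * v r 0 + m) ≤ 6 * m := by
          rw [div_le_iff₀ h4]
          have : (m ^ 2 - 6 * v r 0) * bb (v r) ≤ (m ^ 2 - 6 * v r 0) * 6 :=
            mul_le_mul_of_nonneg_left hb6 hmm
          nlinarith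
        have h6 : 0 ≤ (4 * v r 0 + 2 * m - 3 + 6 * bb (v r)) * pp (v r) :=
          mul_nonneg (by nlinarith) h3.1.le
        have h7 : ((m ^ 2 - 6 * v r 0) * bb (v r) / (2 * v r 0 + m) + pp (v r)) * qq m (v r)
            ≤ (6 * m + 2) * qq m (v r) :=
          mul_le_mul_of_nonneg_right (by linarith) h3.2.le
        have h8 : 0 ≤ (6 * m + 2) * qq m (v r) := mul_nonneg (by linarith) h3.2.le
        have h9 : (6 * m + 2) * qq m (v r) / (2 * r) ≤ (6 * m + 2) * qq m (v r) / t1 :=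
          div_le_div_of_nonneg_left h8 ht1pos (by linarith [hr.1])
        have h10 : -((6 * m + 2) * qq m (v r)) / (2 * r) ≤
            ((4 * v r 0 + 2 * m - 3 + 6 * bb (v r)) * pp (v r)
          - ((m ^ 2 - 6 * v r 0) * bb (v r) / (2 * v r 0 + m) + pp (v r)) * qq m (v r))
          / (2 * r) := by
          apply div_le_div_of_nonneg_right _ (by linarith)
          linarith
        have h11 : -((6 * m + 2) / t1) * qq m (v r) = -((6 * m + 2) * qq m (v r) / t1) := by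
          ring
        have h12 : -((6 * m + 2) * qq m (v r)) / (2 * r) = -((6 * m + 2) * qq m (v r) / (2 * r)) := by
          ring
        linarith
      · exact (hlt (t1 / 2) (by linarith) (by linarith)).2
    rcases ht1bad with hh | hh
    · exact absurd hpp (not_lt.2 hh)
    · exact absurd hqq (not_lt.2 hh)
  intro t ht
  refine ⟨(key t ht).1, (key t ht).2, hbmono t ht fun r hr => ?_⟩
  exact (key r ⟨hr.1.le, hr.2.le.trans ht.2⟩).2

theorem Traj.end_mem (h : Traj m v y') (hm : 9 ≤ m) (T : ℝ) (hT : 0 < T)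
    (hb : ∀ t ∈ Icc 0 T, v t ∈ Wc) : v T ∈ Wg := by
  have hbox : ∀ t ∈ Icc 0 T, v t ∈ Icc lo hi := fun t ht => (hb t ht).1
  have ha := h.a_eq T hbox
  have hpq := h.pq_pos hm T hT hb
  have hTm : T ∈ Icc 0 T := ⟨hT.le, le_rfl⟩
  obtain ⟨⟨a0, b0⟩, ⟨a1, b1⟩, ⟨a2, b2⟩⟩ := (box_iff _).1 (hbox T hTm)
  -- ε > 0
  have he : 0 < v T 1 := by
    refine pos_persist (fun r => v r 1) (fun r => -(v r 1 ^ 2 * (1 - v r 2)) / 2) 0 T 2 hT.le ?_ ?_ ?_
    · intro r hr; exact h.d1 r (hbox r hr)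
    · intro r hr
      have hr' : r ∈ Icc 0 T := ⟨hr.1, hr.2.le⟩
      obtain ⟨_, ⟨c1, d1⟩, ⟨c2, d2⟩⟩ := (box_iff _).1 (hbox r hr')
      have h1 := (hb r hr').2.1
      have h2 : v r 1 * (1 - v r 2) ≤ 2 * 2 := by nlinarith
      have h3 : v r 1 * (v r 1 * (1 - v r 2)) ≤ v r 1 * (2 * 2) :=
        mul_le_mul_of_nonneg_left h2 h1
      nlinarith
    · show 0 < v 0 1
      rw [h.z1]; norm_num
  have he1 : v T 1 ≤ 1 := by
    have := ge_of_deriv_nonneg (fun r => -v r 1) (fun r => -(-(v r 1 ^ 2 * (1 - v r 2)) / 2)) 0 T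
      hT.le (fun r hr => (h.d1 r (hbox r hr)).neg) ?_
    · simp only [h.z1] at this; linarith
    · intro r hr
      have hr' : r ∈ Icc 0 T := ⟨hr.1.le, hr.2.le⟩
      obtain ⟨_, ⟨c1, d1⟩, ⟨c2, d2⟩⟩ := (box_iff _).1 (hbox r hr')
      have : 0 ≤ v r 1 ^ 2 * (1 - v r 2) := mul_nonneg (sq_nonneg _) (by linarith)
      linarith
  have haT : 0 < v T 0 := by rw [ha T hTm]; exact mul_pos hT he
  -- a < 9/2
  have ha92 : v T 0 < 9 / 2 := by
    by_contra hcon
    push Not at hcon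
    have hcont : ContinuousOn (fun t => v t 0) (Icc 0 T) :=
      ((continuous_apply 0).comp h.cont).continuousOn
    have hmem : (9 / 2 : ℝ) ∈ Icc (v 0 0) (v T 0) := ⟨by rw [h.z0]; norm_num, hcon⟩
    obtain ⟨t, ht, hteq⟩ := intermediate_value_Icc hT.le hcont hmem
    obtain ⟨hp, hq, _⟩ := hpq t ht
    simp only at hteq
    unfold pp at hp
    unfold qq at hq
    rw [hteq] at hp hq
    nlinarith [mul_nonneg (sub_nonneg.2 hm) (by linarith : (0:ℝ) ≤ 5 * m + 27)]
  obtain ⟨hp, hq, hb1⟩ := hpq T hTm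
  have hy0 : 0 ≤ v T 2 := by
    unfold bb at hb1
    by_contra hcon
    push Not at hcon
    nlinarith
  have hy1 : v T 2 < 1 := by
    by_contra hcon
    have : v T 2 = 1 := le_antisymm b2 (not_lt.1 hcon)
    unfold qq at hq
    rw [this] at hq
    nlinarith
  exact ⟨⟨by linarith, by linarith⟩, ⟨he, by linarith⟩, ⟨by linarith, hy1⟩, by linarith⟩

theorem Traj.all_mem (h : Traj m v y') (hm : 9 ≤ m) : ∀ s, 0 ≤ s → v s ∈ Wg := by
  by_contra hcon
  push Not at hcon
  obtain ⟨sb, hsb, hbad⟩ := hcon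
  have h0mem : v 0 ∈ Wg := by
    have hy : 0 < yz m ∧ yz m < 1 := by
      unfold yz
      constructor
      · positivity
      · rw [div_lt_one (by positivity)]; nlinarith
    refine ⟨⟨by rw [h.z0]; norm_num, by rw [h.z0]; norm_num⟩,
      ⟨by rw [h.z1]; norm_num, by rw [h.z1]; norm_num⟩,
      ⟨by rw [h.z2]; linarith, by rw [h.z2]; linarith⟩, ?_⟩
    simp [bb, h.z0]
  let S : Set ℝ := Ici 0 ∩ v ⁻¹' (Wgᶜ)
  have hSc : IsClosed S := isClosed_Ici.inter (isOpen_Wg.isClosed_compl.preimage h.cont)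
  have hSne : S.Nonempty := ⟨sb, hsb, hbad⟩
  have hSbd : BddBelow S := ⟨0, fun t ht => ht.1⟩
  obtain ⟨hT0, hTbad⟩ := hSc.csInf_mem hSne hSbd
  have hlt : ∀ t, 0 ≤ t → t < sInf S → v t ∈ Wg := by
    intro t ht0 ht1
    by_contra hc
    exact absurd (csInf_le hSbd (show t ∈ S from ⟨ht0, hc⟩)) (not_le.2 ht1)
  generalize sInf S = T at hT0 hTbad hlt
  have hTpos : 0 < T := by
    rcases (show (0:ℝ) ≤ T from hT0).eq_or_lt with h0 | h0
    · exact absurd (h0 ▸ h0mem) hTbad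
    · exact h0
  have hTc : v T ∈ Wc := by
    have hcl : IsClosed (v ⁻¹' Wc) := isClosed_Wc.preimage h.cont
    have hsub : Ico 0 T ⊆ v ⁻¹' Wc := fun t ht => Wg_sub_Wc (hlt t ht.1 ht.2)
    have h1 := closure_minimal hsub hcl
    rw [closure_Ico hTpos.ne] at h1
    exact h1 ⟨hTpos.le, le_rfl⟩
  refine hTbad (h.end_mem hm T hTpos ?_)
  intro t ht
  rcases ht.2.eq_or_lt with h1 | h1
  · rw [h1]; exact hTc
  · exact Wg_sub_Wc (hlt t ht.1 h1)

end P252
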