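import Vale.Agent.P252.OdeAux

open Set

namespace P252

/-- linear ODE with zero initial value, forward -/
theorem lin_zero_fwd (d k : ℝ → ℝ) (T K : ℝ)
    (hd : ∀ t ∈ Icc 0 T, HasDerivAt d (k t * d t) t) (hk : ∀ t ∈ Icc 0 T, |k t| ≤ K)
    (h0 : d 0 = 0) : ∀ t ∈ Icc 0 T, d t = 0 := by
  refine eq_zero_of_abs_deriv_le_mul_abs_self_of_eq_zero_right (f' := fun t => k t * d t)
    (K := K) (fun t ht => (hd t ht).continuousAt.continuousWithinAt)
    (fun t ht => (hd t (Ico_subset_Icc_self ht)).hasDerivWithinAt) h0 ?_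
  intro t ht
  rw [Real.norm_eq_abs, Real.norm_eq_abs, abs_mul]
  exact mul_le_mul_of_nonneg_right (hk t (Ico_subset_Icc_self ht)) (abs_nonneg _)

/-- linear ODE with zero initial value, backward -/
theorem lin_zero_bwd (d k : ℝ → ℝ) (T K : ℝ)
    (hd : ∀ t ∈ Icc (-T) 0, HasDerivAt d (k t * d t) t) (hk : ∀ t ∈ Icc (-T) 0, |k t| ≤ K)
    (h0 : d 0 = 0) : ∀ t ∈ Icc (-T) 0, d t = 0 := by
  have key := lin_zero_fwd (fun t => d (-t)) (fun t => -k (-t)) T K ?_ ?_ ?_
  · intro t ht
    have := key (-t) ⟨by linarith [ht.2], by linarith [ht.1]⟩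
    simpa using this
  · intro t ht
    have h1 := hd (-t) ⟨by linarith [ht.2], by linarith [ht.1]⟩
    have h2 := h1.scomp t (hasDerivAt_neg t)
    have h3 : (-1 : ℝ) • (k (-t) * d (-t)) = -k (-t) * d (-t) := by
      rw [smul_eq_mul]; ring
    rw [h3] at h2
    exact h2
  · intro t ht
    rw [abs_neg]
    exact hk (-t) ⟨by linarith [ht.2], by linarith [ht.1]⟩
  · simpa using h0

/-- `f' ≥ -K f` and `f ≥ 0` keep positivity. -/
theorem pos_persist (f f' : ℝ → ℝ) (A B K : ℝ) (hAB : A ≤ B)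
    (hf : ∀ t ∈ Icc A B, HasDerivAt f (f' t) t)
    (hge : ∀ t ∈ Ico A B, -K * f t ≤ f' t) (hA : 0 < f A) : 0 < f B := by
  have hd : ∀ t ∈ Icc A B, HasDerivAt (fun t => f t * Real.exp (K * t))
      (f' t * Real.exp (K * t) + f t * (Real.exp (K * t) * K)) t := by
    intro t ht
    have h1 : HasDerivAt (fun t : ℝ => K * t) K t := by
      simpa using (hasDerivAt_id t).const_mul K
    exact (hf t ht).mul h1.exp
  have hmono : MonotoneOn (fun t => f t * Real.exp (K * t)) (Icc A B) := by
    refine monotoneOn_of_deriv_nonneg (convex_Icc A B)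
      (fun t ht => (hd t ht).continuousAt.continuousWithinAt) ?_ ?_
    · intro t ht
      exact (hd t (interior_subset ht)).differentiableAt.differentiableWithinAt
    · intro t ht
      rw [(hd t (interior_subset ht)).deriv]
      rw [interior_Icc] at ht
      have h1 := hge t ⟨ht.1.le, ht.2⟩
      have h2 := Real.exp_pos (K * t)
      nlinarith
  have h1 := hmono (left_mem_Icc.2 hAB) (right_mem_Icc.2 hAB) hAB
  have h2 : 0 < f A * Real.exp (K * A) := mul_pos hA (Real.exp_pos _)
  have h3 : 0 < f B * Real.exp (K * B) := lt_of_lt_of_le h2 h1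
  by_contra hneg
  push Not at hneg
  nlinarith [Real.exp_pos (K * B)]

/-- monotone from nonnegative derivative -/
theorem ge_of_deriv_nonneg (f f' : ℝ → ℝ) (A B : ℝ) (hAB : A ≤ B)
    (hf : ∀ t ∈ Icc A B, HasDerivAt f (f' t) t)
    (hge : ∀ t ∈ Ioo A B, 0 ≤ f' t) : f A ≤ f B := by
  have hmono : MonotoneOn f (Icc A B) := by
    refine monotoneOn_of_deriv_nonneg (convex_Icc A B)
      (fun t ht => (hf t ht).continuousAt.continuousWithinAt) ?_ ?_
    · intro t ht
      exact (hf t (interior_subset ht)).differentiableAt.differentiableWithinAt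
    · intro t ht
      rw [(hf t (interior_subset ht)).deriv]
      rw [interior_Icc] at ht
      exact hge t ht
  exact hmono (left_mem_Icc.2 hAB) (right_mem_Icc.2 hAB) hAB

end P252
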