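import Vale.Agent.P252.OdeLin

open Set

namespace P252

/-- A trajectory of the clamped system; the true ODE holds inside the closed box. -/
structure Traj (m : ℝ) (v : ℝ → Fin 3 → ℝ) (y' : ℝ → ℝ) : Prop where
  cont : Continuous v
  z0 : v 0 0 = 0
  z1 : v 0 1 = 1
  z2 : v 0 2 = yz m
  d0 : ∀ s, v s ∈ Icc lo hi →
    HasDerivAt (fun t => v t 0) (v s 1 * (2 + v s 0 * (v s 2 - 1)) / 2) s
  d1 : ∀ s, v s ∈ Icc lo hi →
    HasDerivAt (fun t => v t 1) (-(v s 1 ^ 2 * (1 - v s 2)) / 2) s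
  d2 : ∀ s, v s ∈ Icc lo hi → HasDerivAt (fun t => v t 2) (y' s) s
  e2 : ∀ s, v s ∈ Icc lo hi →
    2 * s * y' s = s * v s 1 * Psi m (v s 0) (v s 2) - (m + 2) * (v s 2 - yz m)

theorem box_iff (v : Fin 3 → ℝ) : v ∈ Icc lo hi ↔
    (-1 ≤ v 0 ∧ v 0 ≤ 5) ∧ (-1 ≤ v 1 ∧ v 1 ≤ 2) ∧ (-1 ≤ v 2 ∧ v 2 ≤ 1) := by
  constructor
  · intro h
    have a0 := h.1 0; have a1 := h.1 1; have a2 := h.1 2
    have b0 := h.2 0; have b1 := h.2 1; have b2 := h.2 2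
    simp [lo, hi] at a0 a1 a2 b0 b1 b2
    exact ⟨⟨a0, b0⟩, ⟨a1, b1⟩, ⟨a2, b2⟩⟩
  · rintro ⟨⟨a0, b0⟩, ⟨a1, b1⟩, ⟨a2, b2⟩⟩
    constructor
    · intro i; fin_cases i <;> simp [lo] <;> assumption
    · intro i; fin_cases i <;> simp [hi] <;> assumption

variable {m : ℝ} {v : ℝ → Fin 3 → ℝ} {y' : ℝ → ℝ}

/-- `a = s ε` forward. -/
theorem Traj.a_eq (h : Traj m v y') (T : ℝ) (hb : ∀ t ∈ Icc 0 T, v t ∈ Icc lo hi) :
    ∀ t ∈ Icc 0 T, v t 0 = t * v t 1 := by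
  have := lin_zero_fwd (fun t => v t 0 - t * v t 1) (fun t => v t 1 * (v t 2 - 1) / 2) T 2
    ?_ ?_ ?_
  · intro t ht
    have := this t ht
    linarith
  · intro t ht
    have h0 := h.d0 t (hb t ht)
    have h1 := (hasDerivAt_id t).mul (h.d1 t (hb t ht))
    have h2 := h0.sub h1
    refine HasDerivAt.congr_deriv h2 ?_
    simp only [id]
    ring
  · intro t ht
    obtain ⟨⟨a0, b0⟩, ⟨a1, b1⟩, ⟨a2, b2⟩⟩ := (box_iff _).1 (hb t ht)
    rw [abs_le]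
    constructor <;> nlinarith
  · simp [h.z0]

/-- `a = s ε` backward. -/
theorem Traj.a_eq_neg (h : Traj m v y') (T : ℝ) (hb : ∀ t ∈ Icc (-T) 0, v t ∈ Icc lo hi) :
    ∀ t ∈ Icc (-T) 0, v t 0 = t * v t 1 := by
  have := lin_zero_bwd (fun t => v t 0 - t * v t 1) (fun t => v t 1 * (v t 2 - 1) / 2) T 2
    ?_ ?_ ?_
  · intro t ht
    have := this t ht
    linarith
  · intro t ht
    have h0 := h.d0 t (hb t ht)
    have h1 := (hasDerivAt_id t).mul (h.d1 t (hb t ht))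
    have h2 := h0.sub h1
    refine HasDerivAt.congr_deriv h2 ?_
    simp only [id]
    ring
  · intro t ht
    obtain ⟨⟨a0, b0⟩, ⟨a1, b1⟩, ⟨a2, b2⟩⟩ := (box_iff _).1 (hb t ht)
    rw [abs_le]
    constructor <;> nlinarith
  · simp [h.z0]

/-- shorthand quantities -/
noncomputable def bb (w : Fin 3 → ℝ) : ℝ := 1 + w 0 * w 2
noncomputable def pp (w : Fin 3 → ℝ) : ℝ := 2 + w 0 * (w 2 - 1)
noncomputable def qq (m : ℝ) (w : Fin 3 → ℝ) : ℝ :=
  2 * w 0 + 2 * m + 3 - (m ^ 2 - 6 * w 0) * w 2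

/-- the ODE for `y` in product form (needs `a = s ε`). -/
theorem Traj.y_ode (h : Traj m v y') (hm : 9 ≤ m) (s : ℝ) (hb : v s ∈ Icc lo hi)
    (ha : v s 0 = s * v s 1) :
    2 * s * y' s = bb (v s) * qq m (v s) / (2 * v s 0 + m) - v s 2 * pp (v s) := by
  obtain ⟨⟨a0, b0⟩, ⟨a1, b1⟩, ⟨a2, b2⟩⟩ := (box_iff _).1 hb
  have h1 := psi_identity m (v s 0) (v s 2) (by linarith) (by linarith)
    (by intro hh; nlinarith)
  rw [h.e2 s hb, ← ha]
  unfold bb pp qq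
  linarith

theorem Traj.db (h : Traj m v y') (hm : 9 ≤ m) (s : ℝ) (hb : v s ∈ Icc lo hi)
    (ha : v s 0 = s * v s 1) :
    HasDerivAt (fun t => bb (v t)) (v s 1 / 2 * (bb (v s) * qq m (v s) / (2 * v s 0 + m))) s := by
  have h0 := (h.d0 s hb).mul (h.d2 s hb)
  have h1 := h0.const_add 1
  refine HasDerivAt.congr_deriv h1 ?_
  have h2 := h.y_ode hm s hb ha
  have h3 : v s 0 * y' s = v s 1 / 2 * (2 * s * y' s) := by rw [ha]; ring
  rw [h3, h2]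
  unfold pp
  ring

theorem Traj.dp (h : Traj m v y') (hm : 9 ≤ m) (s : ℝ) (hb : v s ∈ Icc lo hi)
    (ha : v s 0 = s * v s 1) :
    HasDerivAt (fun t => pp (v t))
      (v s 1 / 2 * (bb (v s) * qq m (v s) / (2 * v s 0 + m) - pp (v s))) s := by
  have h1 := ((h.db hm s hb ha).sub (h.d0 s hb)).const_add 1
  have h2 : (fun t => pp (v t)) = fun t => 1 + (bb (v t) - v t 0) := by
    funext t; unfold pp bb; ring
  rw [h2]
  refine HasDerivAt.congr_deriv h1 ?_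
  unfold pp
  ring

theorem Traj.dq (h : Traj m v y') (hm : 9 ≤ m) (s : ℝ) (hs : 0 < s) (hb : v s ∈ Icc lo hi)
    (ha : v s 0 = s * v s 1) :
    HasDerivAt (fun t => qq m (v t))
      (((4 * v s 0 + 2 * m - 3 + 6 * bb (v s)) * pp (v s)
        - ((m ^ 2 - 6 * v s 0) * bb (v s) / (2 * v s 0 + m) + pp (v s)) * qq m (v s))
          / (2 * s)) s := by
  have h0 := h.d0 s hb
  have h2 := h.d2 s hb
  have h3 := (((h0.const_mul 2).add_const (2 * m)).add_const 3).sub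
    (((h0.const_mul 6).const_sub (m ^ 2)).mul h2)
  have h4 : (fun t => qq m (v t)) = fun t => 2 * v t 0 + 2 * m + 3 - (m ^ 2 - 6 * v t 0) * v t 2 := by
    funext t; rfl
  rw [h4]
  refine HasDerivAt.congr_deriv h3 ?_
  have h5 := h.y_ode hm s hb ha
  have h6 : y' s = (bb (v s) * qq m (v s) / (2 * v s 0 + m) - v s 2 * pp (v s)) / (2 * s) := by
    rw [← h5]; field_simp
  have h7 : v s 1 = v s 0 / s := by rw [ha]; field_simp
  obtain ⟨⟨a0, b0⟩, ⟨a1, b1⟩, ⟨a2, b2⟩⟩ := (box_iff _).1 hb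
  have h8 : 2 * v s 0 + m ≠ 0 := by intro hh; nlinarith
  rw [h6, h7]
  unfold bb pp qq
  field_simp
  ring

end P252
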